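import Vale.Agent.P097.H900.Slice

/-! # P097 / Theorem A / THMA-L1: a priori bound of the division by the centred difference
(helper900) -/

set_option linter.all false

open Complex Set Filter Topology MeasureTheory
open Vale.Agent.P097.H490
open scoped ComplexConjugate

namespace Vale.Agent.P097.TA.H900

theorem im_small {a r e : ℝ} (ha1 : a ≤ 1 / 2) (her : e ≤ r) {z : ℂ} (hz : ‖z‖ < e) :
    (a + 1 / 2) * |z.im| < r := by
  have h1 : |z.im| ≤ ‖z‖ := Complex.abs_im_le_norm z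
  have h2 := abs_nonneg z.im
  nlinarith

/-- bound of the coefficient away from the nodes -/
theorem cf_bound_far {g : ℂ → ℂ → ℂ} {a r e μ τ : ℝ} (ha1 : a ≤ 1 / 2)
    (her : e ≤ r) (hg : JD g (WW a r e)) (hp : Per g (WW a r e))
    (hb : Bd (Dl g) μ (WW (a + 1 / 2) r e)) (h0 : 0 < τ) (h1 : τ ≤ 1 / 4) {k : ℤ} {z : ℂ}
    (hz : ‖z‖ < e) (hn : ∀ j : ℤ, τ ≤ ‖(k : ℂ) * z - j‖) :
    ‖cf g k z‖ ≤ μ / τ * Real.exp (-(2 * Real.pi * |(k : ℝ)| * (r - a * |z.im|))) := by
  have hρ : 0 < r - (a + 1 / 2) * |z.im| := by have := im_small ha1 her hz; linarith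
  have h2 : ‖cf (Dl g) k z‖ ≤ μ * Real.exp (-(2 * Real.pi * (r - (a + 1 / 2) * |z.im|) * |(k : ℝ)|)) :=
    fc_le hρ (Dl_diff hg hz) (Dl_per hp hz) (fun t ht => hb t z (slice_mem hz ht)) k
  rw [cf_Dl hg hp hz (im_small ha1 her hz), norm_mul, norm_mul] at h2
  have h3 := sin_lower_tau h0 h1 hn
  have h4 : ((k : ℂ) * z).im = k * z.im := by
    have : ((k : ℂ) * z) = ((k : ℝ) : ℂ) * z := by push_cast; ring
    rw [this, Complex.im_ofReal_mul]
  rw [h4, abs_mul] at h3
  have h5 : ‖(2 : ℂ)‖ * ‖Complex.I‖ = 2 := by simp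
  have h5' : ‖(2 : ℂ) * Complex.I‖ = 2 := by rw [norm_mul, h5]
  have h6 : τ * Real.exp (Real.pi * (|(k : ℝ)| * |z.im|)) * ‖cf g k z‖ ≤
      μ * Real.exp (-(2 * Real.pi * (r - (a + 1 / 2) * |z.im|) * |(k : ℝ)|)) := by
    refine le_trans ?_ h2
    refine mul_le_mul_of_nonneg_right ?_ (norm_nonneg _)
    rw [h5']
    linarith
  have h7 : ‖cf g k z‖ ≤ μ * Real.exp (-(2 * Real.pi * (r - (a + 1 / 2) * |z.im|) * |(k : ℝ)|)) /
      (τ * Real.exp (Real.pi * (|(k : ℝ)| * |z.im|))) := by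
    rw [le_div_iff₀ (by positivity), mul_comm]
    exact h6
  refine h7.trans (le_of_eq ?_)
  rw [mul_div_mul_comm, ← Real.exp_sub]
  congr 2
  ring

/-- bound of the coefficient everywhere -/
theorem cf_bound {g : ℂ → ℂ → ℂ} {a r e e' μ : ℝ} (ha0 : 0 ≤ a) (ha1 : a ≤ 1 / 2)
    (her : e ≤ r) (hee : e' < e) (hee1 : e - e' ≤ 1) (hμ : 0 ≤ μ)
    (hg : JD g (WW a r e)) (hp : Per g (WW a r e))
    (hb : Bd (Dl g) μ (WW (a + 1 / 2) r e)) {k : ℤ} (hk : k ≠ 0) {z : ℂ} (hz : ‖z‖ < e') :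
    ‖cf g k z‖ ≤ 9 * μ / (e - e') * Real.exp (-(2 * Real.pi * |(k : ℝ)| * (r - a * |z.im|))) := by
  have hpi := Real.pi_pos
  have hpi4 := Real.pi_lt_d2
  set τ : ℝ := (e - e') / 4 with hτ
  have hτ0 : 0 < τ := by rw [hτ]; linarith
  have hτ1 : τ ≤ 1 / 4 := by rw [hτ]; linarith
  have hk1 : (1 : ℝ) ≤ |(k : ℝ)| := by
    have : (1 : ℤ) ≤ |k| := Int.one_le_abs hk
    exact_mod_cast this
  have hkC : (k : ℂ) ≠ 0 := by exact_mod_cast hk
  have hkn : ‖(k : ℂ)‖ = |(k : ℝ)| := by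
    have : (k : ℂ) = ((k : ℝ) : ℂ) := by push_cast; ring
    rw [this, Complex.norm_real, Real.norm_eq_abs]
  have hexp : Real.exp (Real.pi / 4) ≤ 9 / 4 := by
    have h1 : Real.exp (Real.pi / 4) = Real.exp (Real.pi / 4 / 4) ^ 4 := by
      rw [← Real.exp_nat_mul]; congr 1; push_cast; ring
    have h2 : Real.exp (-(Real.pi / 4 / 4)) ≥ 1 - Real.pi / 4 / 4 := by
      have := Real.add_one_le_exp (-(Real.pi / 4 / 4)); linarith
    rw [Real.exp_neg] at h2
    have h3 : (0.8 : ℝ) ≤ 1 - Real.pi / 4 / 4 := by linarith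
    have h3' : (0.803125 : ℝ) ≤ 1 - Real.pi / 4 / 4 := by linarith
    have h4 : (0.803125 : ℝ) ≤ (Real.exp (Real.pi / 4 / 4))⁻¹ := by linarith
    have h5 : Real.exp (Real.pi / 4 / 4) ≤ 1 / 0.803125 := by
      rw [le_div_iff₀ (by norm_num)]
      have h6 := mul_le_mul_of_nonneg_left h4 (Real.exp_pos (Real.pi / 4 / 4)).le
      rw [mul_inv_cancel₀ (Real.exp_pos _).ne'] at h6
      exact h6
    -- sharper: use exp bound
    have h7 : Real.exp (Real.pi / 4) ≤ Real.exp (0.7875) := Real.exp_le_exp.2 (by linarith)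
    refine h7.trans ?_
    have h8 : Real.exp (0.7875) ^ 80 = Real.exp 1 ^ 63 := by
      rw [← Real.exp_nat_mul, ← Real.exp_nat_mul]; congr 1; norm_num
    have h9 : Real.exp (0.7875) ^ 80 ≤ (9 / 4) ^ 80 := by
      rw [h8]
      calc Real.exp 1 ^ 63 ≤ 2.7182818286 ^ 63 :=
            pow_le_pow_left₀ (Real.exp_pos _).le Real.exp_one_lt_d9.le _
        _ ≤ (9 / 4) ^ 80 := by norm_num
    exact le_of_pow_le_pow_left₀ (by norm_num) (by norm_num) h9
  have hfac : ∀ w : ℂ, 0 ≤ 2 * Real.pi * |(k : ℝ)| * (a * |w.im|) := fun w => by positivity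
  have hμτ : μ / τ * (9 / 4) = 9 * μ / (e - e') := by
    rw [hτ]; field_simp
  by_cases hfar : ∀ j : ℤ, τ ≤ ‖(k : ℂ) * z - j‖
  · refine (cf_bound_far ha1 her hg hp hb hτ0 hτ1 (hz.trans hee) hfar).trans ?_
    refine mul_le_mul_of_nonneg_right ?_ (Real.exp_pos _).le
    rw [← hμτ]
    have : 0 ≤ μ / τ := by positivity
    linarith
  · push Not at hfar
    obtain ⟨j, hj⟩ := hfar
    set c : ℂ := (j : ℂ) / k with hc
    set δ : ℝ := τ / |(k : ℝ)| with hδ
    have hk0 : 0 < |(k : ℝ)| := by linarith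
    have hδ0 : 0 < δ := by positivity
    have hδτ : δ ≤ τ := div_le_self hτ0.le hk1
    have hfact : ∀ w : ℂ, ‖w - c‖ = ‖(k : ℂ) * w - j‖ / |(k : ℝ)| := by
      intro w
      rw [eq_div_iff hk0.ne', ← hkn, ← norm_mul]
      congr 1
      rw [hc]; field_simp
    have hzc : ‖z - c‖ < δ := by
      rw [hfact, hδ]
      exact div_lt_div_of_pos_right hj hk0
    have hball : ∀ w : ℂ, ‖w - c‖ ≤ δ → ‖w‖ < e := by
      intro w hw
      have h1 : ‖w‖ ≤ ‖w - c‖ + ‖c - z‖ + ‖z‖ := by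
        calc ‖w‖ = ‖(w - c) + (c - z) + z‖ := by congr 1; ring
          _ ≤ _ := (norm_add_le _ _).trans (add_le_add_left (norm_add_le _ _) _)
      have h2 : ‖c - z‖ < δ := by rw [norm_sub_rev]; exact hzc
      have : τ = (e - e') / 4 := hτ
      linarith
    have hC : ∀ w ∈ frontier (Metric.ball c δ), ‖cf g k w‖ ≤
        μ / τ * (9 / 4) * Real.exp (-(2 * Real.pi * |(k : ℝ)| * r)) := by
      intro w hw
      rw [frontier_ball c hδ0.ne', mem_sphere_iff_norm] at hw
      have hkw : ‖(k : ℂ) * w - j‖ = τ := by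
        have := hfact w
        rw [hw, hδ, div_eq_div_iff hk0.ne' hk0.ne'] at this
        exact (mul_right_cancel₀ hk0.ne' this).symm
      have hn : ∀ i : ℤ, τ ≤ ‖(k : ℂ) * w - i‖ := by
        intro i
        rcases eq_or_ne i j with rfl | hij
        · exact hkw.ge
        · have h1 : (1 : ℝ) ≤ ‖((i : ℂ) - j)‖ := by
            have h2 : (1 : ℤ) ≤ |i - j| := Int.one_le_abs (sub_ne_zero.2 hij)
            have h3 : ((i : ℂ) - j) = (((i - j : ℤ) : ℝ) : ℂ) := by push_cast; ring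
            rw [h3, Complex.norm_real, Real.norm_eq_abs]
            exact_mod_cast h2
          have h2 : ‖((i : ℂ) - j)‖ ≤ ‖(k : ℂ) * w - j‖ + ‖(k : ℂ) * w - i‖ := by
            calc ‖((i : ℂ) - j)‖ = ‖((k : ℂ) * w - j) - ((k : ℂ) * w - i)‖ := by congr 1; ring
              _ ≤ _ := norm_sub_le _ _
          linarith
      refine (cf_bound_far ha1 her hg hp hb hτ0 hτ1 (hball w hw.le) hn).trans ?_
      rw [mul_assoc (μ / τ) (9 / 4)]
      refine mul_le_mul_of_nonneg_left ?_ (div_nonneg hμ hτ0.le)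
      have h1 : |(k : ℝ)| * |w.im| ≤ 1 / 4 := by
        have h2 : ((k : ℂ) * w - j).im = k * w.im := by
          have : ((k : ℂ) * w - j) = ((k : ℝ) : ℂ) * w - ((j : ℝ) : ℂ) := by push_cast; ring
          rw [this, Complex.sub_im, Complex.im_ofReal_mul, Complex.ofReal_im, sub_zero]
        rw [← abs_mul, ← h2]
        exact (Complex.abs_im_le_norm _).trans (hkw.le.trans hτ1)
      have h3 : Real.exp (-(2 * Real.pi * |(k : ℝ)| * (r - a * |w.im|))) =
          Real.exp (2 * Real.pi * a * (|(k : ℝ)| * |w.im|)) *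
            Real.exp (-(2 * Real.pi * |(k : ℝ)| * r)) := by
        rw [← Real.exp_add]; congr 1; ring
      rw [h3]
      refine mul_le_mul_of_nonneg_right ?_ (Real.exp_pos _).le
      refine le_trans (Real.exp_le_exp.2 ?_) hexp
      have h4 : 0 ≤ |(k : ℝ)| * |w.im| := by positivity
      have h5 : a * (|(k : ℝ)| * |w.im|) ≤ 1 / 2 * (1 / 4) :=
        mul_le_mul ha1 h1 h4 (by norm_num)
      nlinarith
    have hmax := Complex.norm_le_of_forall_mem_frontier_norm_le (f := cf g k)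
      (U := Metric.ball c δ) Metric.isBounded_ball ?_ hC (z := z) (subset_closure (by
        rw [Metric.mem_ball, dist_eq_norm]; exact hzc))
    · refine hmax.trans ?_
      rw [hμτ]
      refine mul_le_mul_of_nonneg_left (Real.exp_le_exp.2 ?_) (by
        have : 0 < e - e' := by linarith
        positivity)
      have := hfac z
      nlinarith
    · refine DifferentiableOn.diffContOnCl_ball (U := Metric.ball (0:ℂ) e) ?_ ?_
      · refine cf_diff hg (fun ε hε => ?_) k
        have h1 := im_small ha1 her hε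
        have h2 := abs_nonneg ε.im
        nlinarith
      · intro w hw
        rw [mem_closedBall_iff_norm] at hw
        rw [mem_ball_zero_iff]
        exact hball w hw

/-- [THMA-L1], sharp form: the division of the centred difference loses `1 / ((r - r') (e - e'))` -/
theorem L1_sharp {g : ℂ → ℂ → ℂ} {a r e r' e' μ : ℝ} (ha0 : 0 ≤ a) (ha1 : a ≤ 1 / 2)
    (her : e ≤ r) (hrr : r' < r) (hee : e' < e) (hee1 : e - e' ≤ 1) (hμ : 0 ≤ μ)
    (hg : JD g (WW a r e)) (hp : Per g (WW a r e))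
    (hb : Bd (Dl g) μ (WW (a + 1 / 2) r e)) :
    Bd (fun x ε => g x ε - mn g ε) (3 / ((r - r') * (e - e')) * μ) (WW a r' e') := by
  intro x ε hx
  have hpi := Real.pi_pos
  have hpi3 := Real.pi_gt_three
  have hε : ‖ε‖ < e' := hx.1
  have hxa : |x.im| + a * |ε.im| < r' := hx.2
  have hε' : ‖ε‖ < e := hε.trans hee
  have hrr0 : 0 < r - r' := by linarith
  have hee0 : 0 < e - e' := by linarith
  have hsum := hasSum_fourier (slice_diff hg hε') (slice_per hp hε') (t := x) (by linarith)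
  have h0 : HasSum (fun N : ℤ => if N = 0 then mn g ε else 0) (mn g ε) := by
    have := hasSum_ite_eq (0 : ℤ) (mn g ε)
    exact this
  have hdiff := hsum.sub h0
  refine (norm_le_of_hasSum_geo (c := 9 * μ / (e - e')) hrr0 (by positivity) ?_ ?_ hdiff).trans ?_
  · have h1 := cf_zero g ε
    simp only [cf] at h1
    simp [h1]
  · intro N hN
    simp only [if_neg hN, sub_zero]
    rw [norm_mul]
    have h1 := cf_bound ha0 ha1 her hee hee1 hμ hg hp hb hN hε
    have h2 : ‖Complex.exp (2 * Real.pi * Complex.I * N * x)‖ ≤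
        Real.exp (2 * Real.pi * |(N : ℝ)| * |x.im|) := by
      have h3 := norm_exp_str (-N) x
      have h4 : (-(2 * Real.pi * Complex.I * ((-N : ℤ) : ℂ) * x)) =
          2 * Real.pi * Complex.I * N * x := by push_cast; ring
      rw [h4] at h3
      rw [h3]
      refine Real.exp_le_exp.2 ?_
      push_cast
      have h5 : -(N : ℝ) * x.im ≤ |(N : ℝ)| * |x.im| := by
        rw [← abs_mul]
        have := neg_abs_le ((N : ℝ) * x.im)
        linarith
      nlinarith
    calc ‖fc (fun x => g x ε) N‖ * ‖Complex.exp (2 * Real.pi * Complex.I * N * x)‖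
        ≤ (9 * μ / (e - e') * Real.exp (-(2 * Real.pi * |(N : ℝ)| * (r - a * |ε.im|)))) *
          Real.exp (2 * Real.pi * |(N : ℝ)| * |x.im|) :=
          mul_le_mul h1 h2 (norm_nonneg _) (by positivity)
      _ = 9 * μ / (e - e') *
          Real.exp (-(2 * Real.pi * |(N : ℝ)| * (r - (|x.im| + a * |ε.im|)))) := by
          rw [mul_assoc, ← Real.exp_add]; congr 2; ring
      _ ≤ 9 * μ / (e - e') * Real.exp (-(2 * Real.pi * (r - r') * |(N : ℝ)|)) := by
          refine mul_le_mul_of_nonneg_left (Real.exp_le_exp.2 ?_) (by positivity)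
          have h6 : 0 ≤ 2 * Real.pi * |(N : ℝ)| := by positivity
          nlinarith
  · rw [div_mul_eq_mul_div, div_div, div_le_div_iff₀ (by positivity) (by positivity)]
    have h1 : 0 ≤ μ * ((r - r') * (e - e')) := by positivity
    nlinarith

/-- [THMA-L1] -/
theorem l1 : L1 := by
  refine ⟨1, 3, by norm_num, ?_⟩
  intro a r e r' e' μ g ha hr' hrr hr he' hee her hμ hg hp hb
  have ha0 : 0 ≤ a := by rcases ha with h | h <;> rw [h]; norm_num
  have ha1 : a ≤ 1 / 2 := by rcases ha with h | h <;> rw [h]; norm_num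
  have h := L1_sharp ha0 ha1 (by linarith) hrr hee (by linarith) hμ hg hp hb
  intro x ε hx
  refine (h x ε hx).trans ?_
  refine mul_le_mul_of_nonneg_right ?_ hμ
  rw [pow_one]
  have h1 : 0 < (r - r') * (e - e') := mul_pos (by linarith) (by linarith)
  refine div_le_div_of_nonneg_left (by norm_num) (mul_pos (by linarith) h1) ?_
  have h2 : e ≤ 1 := by linarith
  nlinarith

end Vale.Agent.P097.TA.H900
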