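import Vale.Agent.P097.H900.Nodes

/-! # P097 / Theorem A / THMA-L2: division with interpolation at the resonances (helper900) -/

set_option linter.all false

open Complex Set Filter Topology MeasureTheory
open Vale.Agent.P097.H490
open scoped ComplexConjugate

namespace Vale.Agent.P097.TA.H900

/-! ## the nodes `j / k` -/

open Classical in
/-- numerators of the nonzero nodes `j / k` with `|j / k| < e` -/
noncomputable def JJ (e : ℝ) (k : ℤ) : Finset ℤ :=
  (Finset.Icc (-⌊|(k : ℝ)| * e⌋) ⌊|(k : ℝ)| * e⌋).filter (fun j => j ≠ 0 ∧ |(j : ℝ) / k| < e)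

theorem mem_JJ {e : ℝ} {k j : ℤ} (hk : k ≠ 0) : j ∈ JJ e k ↔ j ≠ 0 ∧ |(j : ℝ) / k| < e := by
  unfold JJ
  rw [Finset.mem_filter, Finset.mem_Icc]
  constructor
  · exact fun h => h.2
  · intro h
    refine ⟨?_, h⟩
    have hk0 : 0 < |(k : ℝ)| := abs_pos.2 (by exact_mod_cast hk)
    have h1 : |(j : ℝ)| < |(k : ℝ)| * e := by
      have h2 := h.2
      rw [abs_div, div_lt_iff₀ hk0] at h2
      linarith
    have h2 := abs_lt.1 h1
    constructor
    · rw [neg_le]
      refine Int.le_floor.2 ?_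
      push_cast
      linarith [h2.1]
    · exact Int.le_floor.2 h2.2.le

theorem card_JJ {e : ℝ} (he : 0 ≤ e) (k : ℤ) : ((JJ e k).card : ℝ) ≤ 2 * (|(k : ℝ)| * e) := by
  classical
  set m : ℤ := ⌊|(k : ℝ)| * e⌋ with hm
  have hm0 : 0 ≤ m := Int.floor_nonneg.2 (by positivity)
  have hsub : JJ e k ⊆ (Finset.Icc (-m) m).erase 0 := by
    intro j hj
    unfold JJ at hj
    rw [Finset.mem_filter] at hj
    exact Finset.mem_erase.2 ⟨hj.2.1, hj.1⟩
  have h1 := Finset.card_le_card hsub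
  rw [Finset.card_erase_of_mem (Finset.mem_Icc.2 ⟨by omega, hm0⟩), Int.card_Icc] at h1
  have h2 : (m + 1 - -m).toNat - 1 = 2 * m.toNat := by omega
  rw [h2] at h1
  have h3 : ((JJ e k).card : ℝ) ≤ 2 * (m.toNat : ℝ) := by exact_mod_cast h1
  have h4 : (m.toNat : ℝ) = (m : ℝ) := by
    have : ((m.toNat : ℤ) : ℝ) = (m : ℝ) := by rw [Int.toNat_of_nonneg hm0]
    exact_mod_cast this
  rw [h4] at h3
  have h5 : (m : ℝ) ≤ |(k : ℝ)| * e := Int.floor_le _
  linarith

theorem JJ_neg_mem {e : ℝ} {k j : ℤ} (hk : k ≠ 0) (h : j ∈ JJ e k) : -j ∈ JJ e k := by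
  rw [mem_JJ hk] at *
  refine ⟨neg_ne_zero.2 h.1, ?_⟩
  push_cast
  rw [neg_div, abs_neg]
  exact h.2

theorem JJ_neg {e : ℝ} {k : ℤ} (hk : k ≠ 0) : JJ e (-k) = JJ e k := by
  ext j
  rw [mem_JJ hk, mem_JJ (neg_ne_zero.2 hk)]
  push_cast
  rw [div_neg, abs_neg]

/-- interpolation polynomial of the nonzero nodes -/
noncomputable def NN (f : ℂ → ℂ → ℂ) (e : ℝ) (k : ℤ) (ε : ℂ) : ℂ :=
  ∑ j ∈ JJ e k, cf f k ((j : ℂ) / k) * sc (Real.pi * (k * ε - j))

theorem NN_diff (f : ℂ → ℂ → ℂ) (e : ℝ) (k : ℤ) : Differentiable ℂ (NN f e k) := by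
  unfold NN
  refine Differentiable.fun_sum fun j _ => ?_
  exact (sc_diff.comp (by fun_prop : Differentiable ℂ (fun ε : ℂ => (Real.pi : ℂ) * (k * ε - j)))).const_mul _

theorem NN_node (f : ℂ → ℂ → ℂ) {e : ℝ} {k : ℤ} (hk : k ≠ 0) (j : ℤ) :
    NN f e k ((j : ℂ) / k) = if j ∈ JJ e k then cf f k ((j : ℂ) / k) else 0 := by
  have hkC : (k : ℂ) ≠ 0 := by exact_mod_cast hk
  unfold NN
  rw [← Finset.sum_ite_eq (JJ e k) j (fun i => cf f k ((i : ℂ) / k))]
  refine Finset.sum_congr rfl fun i _ => ?_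
  have h1 : (k : ℂ) * ((j : ℂ) / k) = j := by field_simp
  rw [h1]
  split_ifs with h
  · rw [h]; simp [sc_zero]
  · have h2 : ((j : ℂ) - i) = ((j - i : ℤ) : ℂ) := by push_cast; ring
    rw [h2, sc_int (sub_ne_zero.2 h), mul_zero]

theorem NN_bound {f : ℂ → ℂ → ℂ} {r e μ : ℝ} {K : ℕ} (hr : 0 < r) (he : 0 ≤ e) (hμ : 0 ≤ μ)
    (hf : JD f (WW (1 / 2) r e))
    (hp : Per f (WW (1 / 2) r e)) (hres : Res f r e K μ) {k : ℤ} (hk : k ≠ 0)
    (hkK : k.natAbs ≤ K) (ε : ℂ) :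
    ‖NN f e k ε‖ ≤ 6 * (|(k : ℝ)| * e) * μ *
      Real.exp (-(2 * Real.pi * |(k : ℝ)| * (r - 1 / 2 * |ε.im|))) := by
  have hpi := Real.pi_pos
  have h1 : ∀ j ∈ JJ e k, ‖cf f k ((j : ℂ) / k) * sc (Real.pi * (k * ε - j))‖ ≤
      3 * μ * Real.exp (-(2 * Real.pi * |(k : ℝ)| * (r - 1 / 2 * |ε.im|))) := by
    intro j hj
    obtain ⟨hj0, hje⟩ := (mem_JJ hk).1 hj
    have h2 := node_le hr hf hp hres hk hkK hj0 hje
    have h3 := sc_bound (Real.pi * (k * ε - j))
    have h4 : (Real.pi * (k * ε - j) : ℂ).im = Real.pi * (k * ε.im) := by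
      have : (Real.pi * (k * ε - j) : ℂ) =
          ((Real.pi * k : ℝ) : ℂ) * ε - ((Real.pi * j : ℝ) : ℂ) := by push_cast; ring
      rw [this, Complex.sub_im, Complex.im_ofReal_mul, Complex.ofReal_im, sub_zero]; ring
    rw [h4, abs_mul, abs_mul, abs_of_pos hpi] at h3
    rw [norm_mul]
    calc ‖cf f k ((j : ℂ) / k)‖ * ‖sc (Real.pi * (k * ε - j))‖
        ≤ (μ * Real.exp (-(2 * Real.pi * r * |(k : ℝ)|))) *
          (3 * Real.exp (Real.pi * (|(k : ℝ)| * |ε.im|))) :=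
          mul_le_mul h2 h3 (norm_nonneg _) (by positivity)
      _ = 3 * μ * (Real.exp (-(2 * Real.pi * r * |(k : ℝ)|)) *
          Real.exp (Real.pi * (|(k : ℝ)| * |ε.im|))) := by ring
      _ = _ := by rw [← Real.exp_add]; congr 2; ring
  calc ‖NN f e k ε‖ ≤ ∑ j ∈ JJ e k, ‖cf f k ((j : ℂ) / k) * sc (Real.pi * (k * ε - j))‖ :=
        norm_sum_le _ _
    _ ≤ ∑ j ∈ JJ e k, 3 * μ * Real.exp (-(2 * Real.pi * |(k : ℝ)| * (r - 1 / 2 * |ε.im|))) :=
        Finset.sum_le_sum h1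
    _ = ((JJ e k).card : ℝ) *
        (3 * μ * Real.exp (-(2 * Real.pi * |(k : ℝ)| * (r - 1 / 2 * |ε.im|)))) := by
        rw [Finset.sum_const, nsmul_eq_mul]
    _ ≤ (2 * (|(k : ℝ)| * e)) *
        (3 * μ * Real.exp (-(2 * Real.pi * |(k : ℝ)| * (r - 1 / 2 * |ε.im|)))) :=
        mul_le_mul_of_nonneg_right (card_JJ he k) (by positivity)
    _ = _ := by ring

theorem NN_neg {f : ℂ → ℂ → ℂ} {e : ℝ} {k : ℤ} (hk : k ≠ 0)
    (hodd : ∀ z : ℂ, ‖z‖ < e → cf f k (-z) = -cf f k z) (ε : ℂ) :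
    NN f e k (-ε) = -NN f e k ε := by
  unfold NN
  rw [← Finset.sum_neg_distrib]
  refine Finset.sum_nbij' (fun j => -j) (fun j => -j) ?_ ?_ ?_ ?_ ?_
  · intro j hj; exact JJ_neg_mem hk hj
  · intro j hj; exact JJ_neg_mem hk hj
  · intro j _; simp
  · intro j _; simp
  · intro j hj
    obtain ⟨hj0, hje⟩ := (mem_JJ hk).1 hj
    have h1 : ‖((j : ℂ) / k)‖ < e := by
      have h1 : ((j : ℂ) / k) = (((j : ℝ) / k : ℝ) : ℂ) := by push_cast; ring
      rw [h1, Complex.norm_real, Real.norm_eq_abs]; exact hje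
    have h2 := hodd _ h1
    have h3 : (((-j : ℤ) : ℂ) / k) = -((j : ℂ) / k) := by push_cast; ring
    rw [h3, h2]
    have h4 : (Real.pi * ((k : ℂ) * -ε - j) : ℂ) = -(Real.pi * (k * ε - ((-j : ℤ) : ℂ))) := by
      push_cast; ring
    rw [h4, sc_neg]
    ring

theorem NN_conj {f : ℂ → ℂ → ℂ} {e : ℝ} {k : ℤ} (hk : k ≠ 0)
    (hreal : ∀ z : ℂ, ‖z‖ < e → cf f k (conj z) = conj (cf f (-k) z)) (ε : ℂ) :
    NN f e k (conj ε) = conj (NN f e (-k) ε) := by
  unfold NN
  rw [map_sum, JJ_neg hk]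
  refine Finset.sum_nbij' (fun j => -j) (fun j => -j) ?_ ?_ ?_ ?_ ?_
  · intro j hj; exact JJ_neg_mem hk hj
  · intro j hj; exact JJ_neg_mem hk hj
  · intro j _; simp
  · intro j _; simp
  · intro j hj
    obtain ⟨hj0, hje⟩ := (mem_JJ hk).1 hj
    have h0 : ((j : ℂ) / k) = (((j : ℝ) / k : ℝ) : ℂ) := by push_cast; ring
    have h1 : ‖((j : ℂ) / k)‖ < e := by
      rw [h0, Complex.norm_real, Real.norm_eq_abs]; exact hje
    have h2 := hreal _ h1
    have h3 : conj ((j : ℂ) / k) = (j : ℂ) / k := by rw [h0, Complex.conj_ofReal]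
    rw [h3] at h2
    have h5 : (((-j : ℤ) : ℂ) / ((-k : ℤ) : ℂ)) = (j : ℂ) / k := by
      push_cast; rw [neg_div_neg_eq]
    rw [map_mul, h5, ← h2, ← sc_conj]
    congr 1
    rw [← sc_neg]
    congr 1
    simp only [map_mul, map_sub, Complex.conj_ofReal, map_intCast]
    push_cast
    ring

/-! ## removable quotients and symmetries -/

theorem quo_neg {A B : ℂ → ℂ} {w : ℂ} (hA : ∀ᶠ z in 𝓝 w, A (-z) = -A z)
    (hB : ∀ z, B (-z) = -B z) : quo A B (-w) = quo A B w := by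
  have hdA : deriv A (-w) = deriv A w := by
    have h1 : deriv (fun z => A (-z)) w = -deriv A (-w) := deriv_comp_neg A w
    have h2 : (fun z => A (-z)) =ᶠ[𝓝 w] fun z => -A z := hA
    rw [h2.deriv_eq, deriv.fun_neg] at h1
    linear_combination h1
  have hdB : deriv B (-w) = deriv B w := by
    have h1 : deriv (fun z => B (-z)) w = -deriv B (-w) := deriv_comp_neg B w
    have h2 : (fun z => B (-z)) = fun z => -B z := funext hB
    rw [h2, deriv.fun_neg] at h1
    linear_combination h1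
  have hA0 : A (-w) = -A w := hA.self_of_nhds
  unfold quo
  rw [hB w, hA0, hdA, hdB]
  by_cases h : B w = 0
  · simp [h]
  · simp [h, neg_div_neg_eq]

theorem quo_conj {A A' B B' : ℂ → ℂ} {w : ℂ} (hA : ∀ᶠ z in 𝓝 (conj w), A z = conj (A' (conj z)))
    (hB : ∀ z, B z = conj (B' (conj z))) : quo A B (conj w) = conj (quo A' B' w) := by
  have hdA : deriv A (conj w) = conj (deriv A' w) := by
    have h2 : A =ᶠ[𝓝 (conj w)] (conj ∘ A' ∘ conj) := hA
    rw [h2.deriv_eq, deriv_conj_conj]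
    simp
  have hdB : deriv B (conj w) = conj (deriv B' w) := by
    have h2 : B = (conj ∘ B' ∘ conj) := funext hB
    rw [h2, deriv_conj_conj]
    simp
  have hA0 : A (conj w) = conj (A' w) := by
    have := hA.self_of_nhds
    rwa [Complex.conj_conj] at this
  have hB0 : B (conj w) = conj (B' w) := by
    have := hB (conj w)
    rwa [Complex.conj_conj] at this
  unfold quo
  rw [hB0, hA0, hdA, hdB]
  by_cases h : B' w = 0
  · simp [h]
  · simp [h]

/-! ## symmetries of the coefficients -/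

theorem cf_odd {f : ℂ → ℂ → ℂ} {r e : ℝ} (hr : ∀ z : ℂ, ‖z‖ < e → 1 / 2 * |z.im| < r)
    (h : ∀ x ε : ℂ, (x, ε) ∈ WW (1 / 2) r e → f x (-ε) = -f x ε) (k : ℤ) (z : ℂ) (hz : ‖z‖ < e) :
    cf f k (-z) = -cf f k z := by
  simp only [cf, fc]
  rw [← intervalIntegral.integral_neg]
  refine intervalIntegral.integral_congr fun x _ => ?_
  have h1 : ((x : ℂ), z) ∈ WW (1 / 2) r e := ⟨hz, by simpa using hr z hz⟩
  show f x (-z) * _ = -(f x z * _)
  rw [h _ _ h1]
  ring

theorem cf_real {f : ℂ → ℂ → ℂ} {r e : ℝ} (hr : ∀ z : ℂ, ‖z‖ < e → 1 / 2 * |z.im| < r)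
    (h : ∀ x ε : ℂ, (x, ε) ∈ WW (1 / 2) r e → f (conj x) (conj ε) = conj (f x ε)) (k : ℤ) (z : ℂ)
    (hz : ‖z‖ < e) : cf f k (conj z) = conj (cf f (-k) z) := by
  simp only [cf, fc]
  rw [← intervalIntegral.intervalIntegral_conj]
  refine intervalIntegral.integral_congr fun x _ => ?_
  have h1 : ((x : ℂ), z) ∈ WW (1 / 2) r e := ⟨hz, by simpa using hr z hz⟩
  have h2 := h _ _ h1
  rw [Complex.conj_ofReal] at h2
  show f x (conj z) * _ = conj (f x z * _)
  rw [h2, map_mul, ← Complex.exp_conj]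
  congr 2
  simp only [map_neg, map_mul, Complex.conj_ofReal, Complex.conj_I, map_intCast, map_ofNat]
  push_cast
  ring

/-! ## the solution -/

/-- nonzero frequencies up to `K` -/
noncomputable def DD (K : ℕ) : Finset ℤ := (Finset.Icc (-(K : ℤ)) K).erase 0

theorem mem_DD {K : ℕ} {k : ℤ} : k ∈ DD K ↔ k ≠ 0 ∧ k.natAbs ≤ K := by
  unfold DD
  rw [Finset.mem_erase, Finset.mem_Icc]
  constructor
  · rintro ⟨h1, h2, h3⟩; exact ⟨h1, by omega⟩
  · rintro ⟨h1, h2⟩; exact ⟨h1, by omega, by omega⟩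

/-- the denominator -/
noncomputable def Bk (k : ℤ) (z : ℂ) : ℂ := 2 * Complex.I * Complex.sin (Real.pi * (k * z))

/-- the numerator -/
noncomputable def Ak (f : ℂ → ℂ → ℂ) (e : ℝ) (k : ℤ) (z : ℂ) : ℂ := cf f k z - NN f e k z

/-- the coefficients of the solution -/
noncomputable def Sk (f : ℂ → ℂ → ℂ) (e : ℝ) (k : ℤ) (z : ℂ) : ℂ := quo (Ak f e k) (Bk k) z

theorem Bk_diff (k : ℤ) : Differentiable ℂ (Bk k) := by
  unfold Bk
  fun_prop

theorem Bk_deriv (k : ℤ) (z : ℂ) : deriv (Bk k) z =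
    2 * Complex.I * (Complex.cos (Real.pi * (k * z)) * (Real.pi * k)) := by
  have h1 : HasDerivAt (fun z : ℂ => (Real.pi : ℂ) * (k * z)) (Real.pi * k) z := by
    have := ((hasDerivAt_id z).const_mul (k : ℂ)).const_mul (Real.pi : ℂ)
    simpa using this
  exact ((h1.csin).const_mul (2 * Complex.I)).deriv

theorem Bk_zero {k : ℤ} (hk : k ≠ 0) {z : ℂ} (h : Bk k z = 0) : ∃ j : ℤ, z = (j : ℂ) / k := by
  have hkC : (k : ℂ) ≠ 0 := by exact_mod_cast hk
  have hpi : (Real.pi : ℂ) ≠ 0 := by exact_mod_cast Real.pi_ne_zero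
  have h1 : Complex.sin (Real.pi * (k * z)) = 0 := by
    unfold Bk at h
    have h2 : (2 * Complex.I : ℂ) ≠ 0 := mul_ne_zero two_ne_zero Complex.I_ne_zero
    exact (mul_eq_zero.1 h).resolve_left h2
  rw [Complex.sin_eq_zero_iff] at h1
  obtain ⟨j, hj⟩ := h1
  refine ⟨j, ?_⟩
  rw [eq_div_iff hkC]
  have h3 : (Real.pi : ℂ) * (k * z) = Real.pi * j := by rw [hj]; ring
  have h4 := mul_left_cancel₀ hpi h3
  rw [← h4]; ring

theorem Bk_deriv_ne {k : ℤ} (hk : k ≠ 0) {z : ℂ} (h : Bk k z = 0) : deriv (Bk k) z ≠ 0 := by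
  have hkC : (k : ℂ) ≠ 0 := by exact_mod_cast hk
  have hpi : (Real.pi : ℂ) ≠ 0 := by exact_mod_cast Real.pi_ne_zero
  have h2 : (2 * Complex.I : ℂ) ≠ 0 := mul_ne_zero two_ne_zero Complex.I_ne_zero
  have h1 : Complex.sin (Real.pi * (k * z)) = 0 := (mul_eq_zero.1 h).resolve_left h2
  rw [Bk_deriv]
  refine mul_ne_zero h2 (mul_ne_zero ?_ (mul_ne_zero hpi hkC))
  intro h3
  have h4 := Complex.sin_sq_add_cos_sq (Real.pi * (k * z))
  rw [h1, h3] at h4
  norm_num at h4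

theorem Ak_zero {f : ℂ → ℂ → ℂ} {e : ℝ} (h0 : ∀ x : ℝ, f x 0 = 0) {k : ℤ} (hk : k ≠ 0) {z : ℂ}
    (hz : ‖z‖ < e) (h : Bk k z = 0) : Ak f e k z = 0 := by
  have hkC : (k : ℂ) ≠ 0 := by exact_mod_cast hk
  obtain ⟨j, rfl⟩ := Bk_zero hk h
  unfold Ak
  rw [NN_node f hk j]
  by_cases hj : j = 0
  · subst hj
    have h1 : (0 : ℤ) ∉ JJ e k := fun h => ((mem_JJ hk).1 h).1 rfl
    rw [if_neg h1]
    have h2 : (((0 : ℤ) : ℂ) / k) = 0 := by simp
    rw [h2, sub_zero]
    simp only [cf, fc]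
    simp [h0]
  · have h1 : j ∈ JJ e k := by
      refine (mem_JJ hk).2 ⟨hj, ?_⟩
      have h0 : ((j : ℂ) / k) = (((j : ℝ) / k : ℝ) : ℂ) := by push_cast; ring
      rw [h0, Complex.norm_real, Real.norm_eq_abs] at hz
      exact hz
    rw [if_pos h1, sub_self]

theorem Sk_diff {f : ℂ → ℂ → ℂ} {r e : ℝ} (hr : ∀ z : ℂ, ‖z‖ < e → 1 / 2 * |z.im| < r)
    (hf : JD f (WW (1 / 2) r e)) (h0 : ∀ x : ℝ, f x 0 = 0) {k : ℤ} (hk : k ≠ 0) :
    DifferentiableOn ℂ (Sk f e k) (Metric.ball 0 e) := by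
  refine quo_diff Metric.isOpen_ball ?_ (Bk_diff k).differentiableOn ?_ ?_
  · exact (cf_diff hf hr k).sub (NN_diff f e k).differentiableOn
  · intro w hw h
    exact Ak_zero h0 hk (by simpa using hw) h
  · intro w _ h
    exact Bk_deriv_ne hk h

theorem Sk_mul {f : ℂ → ℂ → ℂ} {e : ℝ} (h0 : ∀ x : ℝ, f x 0 = 0) {k : ℤ} (hk : k ≠ 0) {z : ℂ}
    (hz : ‖z‖ < e) : Sk f e k z * Bk k z = Ak f e k z :=
  quo_mul (fun h => Ak_zero h0 hk hz h)

theorem Sk_even {f : ℂ → ℂ → ℂ} {r e : ℝ} (hr : ∀ z : ℂ, ‖z‖ < e → 1 / 2 * |z.im| < r)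
    (h : ∀ x ε : ℂ, (x, ε) ∈ WW (1 / 2) r e → f x (-ε) = -f x ε) {k : ℤ} (hk : k ≠ 0) {z : ℂ}
    (hz : ‖z‖ < e) : Sk f e k (-z) = Sk f e k z := by
  refine quo_neg ?_ ?_
  · have : ∀ᶠ w in 𝓝 z, ‖w‖ < e := continuous_norm.continuousAt.eventually_lt continuousAt_const hz
    filter_upwards [this] with w hw
    unfold Ak
    rw [cf_odd hr h k w hw, NN_neg hk (cf_odd hr h k)]
    ring
  · intro w
    unfold Bk
    have : (Real.pi : ℂ) * (k * -w) = -(Real.pi * (k * w)) := by ring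
    rw [this, Complex.sin_neg]; ring

theorem Sk_real {f : ℂ → ℂ → ℂ} {r e : ℝ} (hr : ∀ z : ℂ, ‖z‖ < e → 1 / 2 * |z.im| < r)
    (h : ∀ x ε : ℂ, (x, ε) ∈ WW (1 / 2) r e → f (conj x) (conj ε) = conj (f x ε)) {k : ℤ}
    (hk : k ≠ 0) {z : ℂ} (hz : ‖z‖ < e) : Sk f e k (conj z) = conj (Sk f e (-k) z) := by
  refine quo_conj ?_ ?_
  · have : ∀ᶠ w in 𝓝 (conj z), ‖w‖ < e :=
      continuous_norm.continuousAt.eventually_lt continuousAt_const (by simpa using hz)
    filter_upwards [this] with w hw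
    have hw' : ‖conj w‖ < e := by simpa using hw
    unfold Ak
    have h1 := cf_real hr h k (conj w) hw'
    have h2 := NN_conj hk (cf_real hr h k) (conj w)
    rw [Complex.conj_conj] at h1 h2
    rw [h1, h2, map_sub]
  · intro w
    unfold Bk
    rw [map_mul, map_mul, ← Complex.sin_conj]
    simp only [map_mul, Complex.conj_ofReal, map_intCast, Complex.conj_conj, Complex.conj_I,
      map_ofNat]
    have : (Real.pi : ℂ) * (((-k : ℤ) : ℂ) * w) = -(Real.pi * (k * w)) := by push_cast; ring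
    rw [this, Complex.sin_neg]; ring

open Classical in
/-- the solution -/
noncomputable def SS (f : ℂ → ℂ → ℂ) (e : ℝ) (K : ℕ) (x ε : ℂ) : ℂ :=
  if ‖ε‖ < e then ∑ k ∈ DD K, Sk f e k ε * Complex.exp (2 * Real.pi * Complex.I * k * x) else 0

theorem exp_per' (N : ℤ) (t : ℂ) :
    Complex.exp (2 * Real.pi * Complex.I * N * (t + 1)) =
      Complex.exp (2 * Real.pi * Complex.I * N * t) := by
  rw [Complex.exp_eq_exp_iff_exists_int]
  exact ⟨N, by ring⟩

theorem SS_diff {f : ℂ → ℂ → ℂ} {r e : ℝ} (hr : ∀ z : ℂ, ‖z‖ < e → 1 / 2 * |z.im| < r)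
    (hf : JD f (WW (1 / 2) r e)) (h0 : ∀ x : ℝ, f x 0 = 0) (K : ℕ) :
    JD (SS f e K) {p | ‖p.2‖ < e} := by
  have h1 : DifferentiableOn ℂ (fun p : ℂ × ℂ => ∑ k ∈ DD K, Sk f e k p.2 *
      Complex.exp (2 * Real.pi * Complex.I * k * p.1)) {p | ‖p.2‖ < e} := by
    refine DifferentiableOn.fun_sum fun k hk => ?_
    refine DifferentiableOn.mul ?_ (by fun_prop)
    exact (Sk_diff hr hf h0 (mem_DD.1 hk).1).comp (f := fun p : ℂ × ℂ => p.2) (by fun_prop)
      (fun p hp => by simpa using hp)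
  refine h1.congr ?_
  intro p hp
  have hp' : ‖p.2‖ < e := hp
  simp only [SS]
  rw [if_pos hp']

/-- geometric majorant on `ℤ`, high frequencies -/
theorem norm_le_of_hasSum_geoK {T : ℤ → ℂ} {A : ℂ} {c s : ℝ} (K : ℕ) (hs : 0 < s) (hc : 0 ≤ c)
    (h0 : ∀ N : ℤ, N.natAbs ≤ K → T N = 0)
    (hT : ∀ N : ℤ, K < N.natAbs → ‖T N‖ ≤ c * Real.exp (-(2 * Real.pi * s * |(N : ℝ)|)))
    (ha : HasSum T A) : ‖A‖ ≤ c * Real.exp (-(2 * Real.pi * K * s)) / (Real.pi * s) := by
  have hpi := Real.pi_pos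
  set q : ℝ := Real.exp (-(2 * Real.pi * s)) with hq
  have hq0 : 0 < q := Real.exp_pos _
  have hq1 : q < 1 := exp_lt_one' hs
  have hqn : ∀ n : ℕ, Real.exp (-(2 * Real.pi * s * (n : ℝ))) = q ^ n := by
    intro n
    rw [hq, ← Real.exp_nat_mul]
    congr 1
    ring
  set B : ℤ → ℝ := fun N => if N.natAbs ≤ K then 0 else
    c * Real.exp (-(2 * Real.pi * s * |(N : ℝ)|)) with hB
  have hsum1 : HasSum (fun n : ℕ => c * q ^ (n + (K + 1))) (c * q ^ K * (q / (1 - q))) := by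
    have h1 := (hasSum_geometric_of_lt_one hq0.le hq1).mul_left (c * q ^ (K + 1))
    have h2 : (fun n : ℕ => c * q ^ (K + 1) * q ^ n) = fun n => c * q ^ (n + (K + 1)) := by
      funext n; rw [pow_add q n]; ring
    rw [h2] at h1
    have h3 : c * q ^ (K + 1) * (1 - q)⁻¹ = c * q ^ K * (q / (1 - q)) := by
      rw [div_eq_mul_inv, pow_succ]; ring
    rw [h3] at h1
    exact h1
  have hBp : HasSum (fun n : ℕ => B (n : ℤ)) (c * q ^ K * (q / (1 - q))) := by
    rw [← hasSum_nat_add_iff' (f := fun n : ℕ => B (n : ℤ)) (K + 1)]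
    have h3 : ∑ i ∈ Finset.range (K + 1), B (i : ℤ) = 0 := by
      refine Finset.sum_eq_zero fun i hi => ?_
      rw [Finset.mem_range] at hi
      simp only [hB]
      rw [if_pos (by rw [Int.natAbs_natCast]; omega)]
    rw [h3, sub_zero]
    have h5 : (fun n : ℕ => B ((n + (K + 1) : ℕ) : ℤ)) = fun n : ℕ => c * q ^ (n + (K + 1)) := by
      funext n
      simp only [hB]
      rw [if_neg (by rw [Int.natAbs_natCast]; omega)]
      have h4 : |(((n + (K + 1) : ℕ) : ℤ) : ℝ)| = ((n + (K + 1) : ℕ) : ℝ) := by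
        rw [Int.cast_natCast]; exact abs_of_nonneg (Nat.cast_nonneg _)
      rw [h4, hqn]
    rw [h5]
    exact hsum1
  have hBn : HasSum (fun n : ℕ => B (-((n : ℤ) + 1))) (c * q ^ K * (q / (1 - q))) := by
    rw [← hasSum_nat_add_iff' (f := fun n : ℕ => B (-((n : ℤ) + 1))) K]
    have h3 : ∑ i ∈ Finset.range K, B (-((i : ℤ) + 1)) = 0 := by
      refine Finset.sum_eq_zero fun i hi => ?_
      rw [Finset.mem_range] at hi
      simp only [hB]
      rw [if_pos (by omega)]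
    rw [h3, sub_zero]
    have h5 : (fun n : ℕ => B (-(((n + K : ℕ) : ℤ) + 1))) = fun n : ℕ => c * q ^ (n + (K + 1)) := by
      funext n
      simp only [hB]
      rw [if_neg (by omega)]
      have h4 : |((-(((n + K : ℕ) : ℤ) + 1) : ℤ) : ℝ)| = ((n + (K + 1) : ℕ) : ℝ) := by
        push_cast
        rw [abs_neg, abs_of_nonneg (by positivity)]
        ring
      rw [h4, hqn]
    rw [h5]
    exact hsum1
  have hBt := HasSum.of_nat_of_neg_add_one hBp hBn
  have h5 : ‖A‖ ≤ c * q ^ K * (q / (1 - q)) + c * q ^ K * (q / (1 - q)) := by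
    refine ha.norm_le_of_bounded hBt fun N => ?_
    by_cases hN : N.natAbs ≤ K
    · simp [hB, hN, h0 N hN]
    · simp only [hB, if_neg hN]
      exact hT N (by omega)
  refine h5.trans ?_
  have h6 : q / (1 - q) ≤ 1 / (2 * Real.pi * s) := by
    rw [div_le_div_iff₀ (by linarith) (by positivity)]
    have h7 : 1 + 2 * Real.pi * s ≤ q⁻¹ := by
      rw [hq, Real.exp_neg, inv_inv]
      have := Real.add_one_le_exp (2 * Real.pi * s)
      linarith
    have h8 : q * (1 + 2 * Real.pi * s) ≤ 1 := by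
      calc q * (1 + 2 * Real.pi * s) ≤ q * q⁻¹ := mul_le_mul_of_nonneg_left h7 hq0.le
        _ = 1 := mul_inv_cancel₀ hq0.ne'
    linarith
  have h9 : Real.exp (-(2 * Real.pi * K * s)) = q ^ K := by
    rw [← hqn]; congr 1; ring
  rw [h9]
  calc c * q ^ K * (q / (1 - q)) + c * q ^ K * (q / (1 - q)) = 2 * (c * q ^ K) * (q / (1 - q)) := by
        ring
    _ ≤ 2 * (c * q ^ K) * (1 / (2 * Real.pi * s)) := mul_le_mul_of_nonneg_left h6 (by positivity)
    _ = c * q ^ K / (Real.pi * s) := by field_simp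

/-- bound of the Fourier coefficients by the oscillation -/
theorem cf_le_osc {f : ℂ → ℂ → ℂ} {r e M : ℝ} (hf : JD f (WW (1 / 2) r e))
    (hp : Per f (WW (1 / 2) r e)) (hb : Bd (fun x ε => f x ε - mn f ε) M (WW (1 / 2) r e))
    {k : ℤ} (hk : k ≠ 0) {ε : ℂ} (hε : ‖ε‖ < e) (hr : 1 / 2 * |ε.im| < r) :
    ‖cf f k ε‖ ≤ M * Real.exp (-(2 * Real.pi * (r - 1 / 2 * |ε.im|) * |(k : ℝ)|)) := by
  have hs := slice_diff hf hε
  have hsp := slice_per hp hε
  have hρ : 0 < r - 1 / 2 * |ε.im| := by linarith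
  have h1 : fc (fun x => f x ε - mn f ε) k = cf f k ε := by
    simp only [cf, fc]
    have hc : Continuous (fun x : ℝ => f x ε) := by
      rw [← continuousOn_univ]
      exact ContinuousOn.comp (g := fun z : ℂ => f z ε) (f := fun x : ℝ => (x : ℂ))
        hs.continuousOn (Continuous.continuousOn (by fun_prop))
        (fun x _ => ⟨by simpa using hρ, by simpa using hρ⟩)
    simp only [sub_mul]
    rw [intervalIntegral.integral_sub, intervalIntegral.integral_const_mul, fc_exp_zero hk,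
      mul_zero, sub_zero]
    · exact (hc.mul (by fun_prop)).intervalIntegrable _ _
    · exact Continuous.intervalIntegrable (by fun_prop) _ _
  rw [← h1]
  refine fc_le (f := fun x => f x ε - mn f ε) hρ (hs.sub (differentiableOn_const _)) ?_ ?_ k
  · intro t ht
    have := hsp t ht
    simp only at this
    simp only [this]
  · intro t ht
    exact hb t ε (slice_mem hε ht)

theorem Dl_SS {f : ℂ → ℂ → ℂ} {e : ℝ} (h0 : ∀ x : ℝ, f x 0 = 0) (K : ℕ) {x ε : ℂ}
    (hε : ‖ε‖ < e) : Dl (SS f e K) x ε =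
      ∑ k ∈ DD K, Ak f e k ε * Complex.exp (2 * Real.pi * Complex.I * k * x) := by
  simp only [Dl, SS, if_pos hε]
  rw [← Finset.sum_sub_distrib]
  refine Finset.sum_congr rfl fun k hk => ?_
  rw [← Sk_mul h0 (mem_DD.1 hk).1 hε, Bk, Complex.sin]
  have e1 : Complex.exp (2 * Real.pi * Complex.I * k * (x + ε / 2)) =
      Complex.exp (2 * Real.pi * Complex.I * k * x) *
        Complex.exp (Real.pi * (k * ε) * Complex.I) := by
    rw [← Complex.exp_add]; congr 1; ring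
  have e2 : Complex.exp (2 * Real.pi * Complex.I * k * (x - ε / 2)) =
      Complex.exp (2 * Real.pi * Complex.I * k * x) *
        Complex.exp (-(Real.pi * (k * ε)) * Complex.I) := by
    rw [← Complex.exp_add]; congr 1; ring
  rw [e1, e2]
  linear_combination (-(Complex.exp (-(Real.pi * (k * ε)) * Complex.I) -
    Complex.exp (Real.pi * (k * ε) * Complex.I)) * Sk f e k ε *
      Complex.exp (2 * Real.pi * Complex.I * k * x)) * Complex.I_sq

theorem exp_norm_le (N : ℤ) (x : ℂ) : ‖Complex.exp (2 * Real.pi * Complex.I * N * x)‖ ≤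
    Real.exp (2 * Real.pi * |(N : ℝ)| * |x.im|) := by
  have hpi := Real.pi_pos
  have h3 := norm_exp_str (-N) x
  have h4 : (-(2 * Real.pi * Complex.I * ((-N : ℤ) : ℂ) * x)) =
      2 * Real.pi * Complex.I * N * x := by push_cast; ring
  rw [h4] at h3
  rw [h3]
  refine Real.exp_le_exp.2 ?_
  push_cast
  have h5 : -(N : ℝ) * x.im ≤ |(N : ℝ)| * |x.im| := by
    rw [← abs_mul]
    have := neg_abs_le ((N : ℝ) * x.im)
    linarith
  nlinarith

/-- error of the division -/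
theorem SS_err {f : ℂ → ℂ → ℂ} {r e r' M μ : ℝ} {K : ℕ} (hr : 0 < r) (hrr : r' < r) (he : 0 < e)
    (her : e ≤ r) (hM : 0 ≤ M) (hμ : 0 ≤ μ) (hf : JD f (WW (1 / 2) r e))
    (hp : Per f (WW (1 / 2) r e)) (h0 : ∀ x : ℝ, f x 0 = 0)
    (hb : Bd (fun x ε => f x ε - mn f ε) M (WW (1 / 2) r e)) (hres : Res f r e K μ) :
    Bd (fun x ε => f x ε - mn f ε - Dl (SS f e K) x ε)
      (2 / (r - r') * (K * e * μ + M * Real.exp (-(2 * Real.pi * K * (r - r')))))
      (WW (1 / 2) r' e) := by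
  intro x ε hx
  have hpi := Real.pi_pos
  have hpi3 := Real.pi_gt_three
  have hε : ‖ε‖ < e := hx.1
  have hxa : |x.im| + 1 / 2 * |ε.im| < r' := hx.2
  have hrr0 : 0 < r - r' := by linarith
  have hsmall : 1 / 2 * |ε.im| < r := by
    have h1 : |ε.im| ≤ ‖ε‖ := Complex.abs_im_le_norm ε
    have h2 := abs_nonneg ε.im
    linarith
  have hsum := hasSum_fourier (slice_diff hf hε) (slice_per hp hε) (t := x) (by linarith)
  have hz : HasSum (fun N : ℤ => if N = 0 then mn f ε else 0) (mn f ε) :=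
    hasSum_ite_eq (0 : ℤ) (mn f ε)
  set E : ℤ → ℂ := fun N => Complex.exp (2 * Real.pi * Complex.I * N * x) with hE
  have hfin : ∀ G : ℤ → ℂ, HasSum (fun N : ℤ => if N ∈ DD K then G N else 0)
      (∑ N ∈ DD K, G N) := by
    intro G
    have h1 : HasSum (fun N : ℤ => if N ∈ DD K then G N else 0)
        (∑ b ∈ DD K, (if b ∈ DD K then G b else 0)) :=
      hasSum_sum_of_ne_finset_zero (fun b hb => if_neg hb)
    have h2 : ∑ b ∈ DD K, (if b ∈ DD K then G b else 0) = ∑ N ∈ DD K, G N :=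
      Finset.sum_congr rfl fun b hb => if_pos hb
    rw [h2] at h1
    exact h1
  have hs1 := hfin (fun N => Ak f e N ε * E N)
  have hs2 := hfin (fun N => NN f e N ε * E N)
  set a1 : ℂ := ∑ N ∈ DD K, NN f e N ε * E N with ha1
  have hD : Dl (SS f e K) x ε = ∑ N ∈ DD K, Ak f e N ε * E N := Dl_SS h0 K hε
  rw [← hD] at hs1
  have htot := ((hsum.sub hz).sub hs1).sub hs2
  have hexpN : ∀ N : ℤ, Real.exp (-(2 * Real.pi * |(N : ℝ)| * (r - 1 / 2 * |ε.im|))) *
      Real.exp (2 * Real.pi * |(N : ℝ)| * |x.im|) ≤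
      Real.exp (-(2 * Real.pi * (r - r') * |(N : ℝ)|)) := by
    intro N
    rw [← Real.exp_add]
    refine Real.exp_le_exp.2 ?_
    have h6 : 0 ≤ 2 * Real.pi * |(N : ℝ)| := by positivity
    nlinarith
  -- nodes
  have hb1 : ‖a1‖ ≤ (6 * (K * e) * μ) / (Real.pi * (r - r')) := by
    refine norm_le_of_hasSum_geo hrr0 (by positivity) ?_ ?_ hs2
    · simp [DD]
    · intro N hN
      by_cases hND : N ∈ DD K
      · rw [if_pos hND, norm_mul]
        have h1 := NN_bound hr he.le hμ hf hp hres hN (mem_DD.1 hND).2 ε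
        have h2 : |(N : ℝ)| ≤ K := by
          have h3 := (mem_DD.1 hND).2
          have h4 : |(N : ℝ)| = (N.natAbs : ℝ) := by
            rw [Nat.cast_natAbs, Int.cast_abs]
          rw [h4]; exact_mod_cast h3
        calc ‖NN f e N ε‖ * ‖E N‖
            ≤ (6 * (|(N : ℝ)| * e) * μ *
                Real.exp (-(2 * Real.pi * |(N : ℝ)| * (r - 1 / 2 * |ε.im|)))) *
              Real.exp (2 * Real.pi * |(N : ℝ)| * |x.im|) :=
              mul_le_mul h1 (exp_norm_le N x) (norm_nonneg _) (by positivity)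
          _ = 6 * (|(N : ℝ)| * e) * μ *
              (Real.exp (-(2 * Real.pi * |(N : ℝ)| * (r - 1 / 2 * |ε.im|))) *
              Real.exp (2 * Real.pi * |(N : ℝ)| * |x.im|)) := by ring
          _ ≤ 6 * (K * e) * μ * Real.exp (-(2 * Real.pi * (r - r') * |(N : ℝ)|)) := by
              refine mul_le_mul ?_ (hexpN N) (by positivity) (by positivity)
              refine mul_le_mul_of_nonneg_right ?_ hμ
              have : |(N : ℝ)| * e ≤ K * e := mul_le_mul_of_nonneg_right h2 he.le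
              linarith
      · rw [if_neg hND, norm_zero]; positivity
  -- tail
  have hb2 : ‖f x ε - mn f ε - Dl (SS f e K) x ε - a1‖ ≤
      M * Real.exp (-(2 * Real.pi * K * (r - r'))) / (Real.pi * (r - r')) := by
    refine norm_le_of_hasSum_geoK K hrr0 hM ?_ ?_ htot
    · intro N hN
      by_cases hN0 : N = 0
      · subst hN0
        have h1 := cf_zero f ε
        simp only [cf] at h1
        simp [h1, DD]
      · have hND : N ∈ DD K := mem_DD.2 ⟨hN0, hN⟩
        simp only [if_neg hN0, if_pos hND, Ak, cf, hE]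
        ring
    · intro N hN
      have hN0 : N ≠ 0 := by rintro rfl; simp at hN
      have hND : N ∉ DD K := fun h => by have := (mem_DD.1 h).2; omega
      simp only [if_neg hN0, if_neg hND, sub_zero]
      rw [norm_mul]
      have h1 := cf_le_osc hf hp hb hN0 hε hsmall
      calc ‖fc (fun x => f x ε) N‖ * ‖Complex.exp (2 * Real.pi * Complex.I * N * x)‖
          ≤ (M * Real.exp (-(2 * Real.pi * (r - 1 / 2 * |ε.im|) * |(N : ℝ)|))) *
            Real.exp (2 * Real.pi * |(N : ℝ)| * |x.im|) :=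
            mul_le_mul h1 (exp_norm_le N x) (norm_nonneg _) (by positivity)
        _ = M * (Real.exp (-(2 * Real.pi * |(N : ℝ)| * (r - 1 / 2 * |ε.im|))) *
            Real.exp (2 * Real.pi * |(N : ℝ)| * |x.im|)) := by
            rw [mul_assoc]; congr 3; ring
        _ ≤ M * Real.exp (-(2 * Real.pi * (r - r') * |(N : ℝ)|)) :=
            mul_le_mul_of_nonneg_left (hexpN N) hM
  have h3 : ‖f x ε - mn f ε - Dl (SS f e K) x ε‖ ≤ ‖a1‖ +
      ‖f x ε - mn f ε - Dl (SS f e K) x ε - a1‖ := by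
    calc ‖f x ε - mn f ε - Dl (SS f e K) x ε‖ =
        ‖a1 + (f x ε - mn f ε - Dl (SS f e K) x ε - a1)‖ := by congr 1; ring
      _ ≤ _ := norm_add_le _ _
  refine h3.trans ((add_le_add hb1 hb2).trans ?_)
  have h4 : 0 ≤ K * e * μ := by positivity
  have h5 : 0 ≤ M * Real.exp (-(2 * Real.pi * K * (r - r'))) := by positivity
  have h6 : 0 < Real.pi * (r - r') := by positivity
  rw [← add_div, div_mul_eq_mul_div, div_le_div_iff₀ h6 hrr0]
  set X := K * e * μ
  set Y := M * Real.exp (-(2 * Real.pi * K * (r - r')))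
  have h7 : 6 * (K * e) * μ = 6 * X := by simp only [X]; ring
  rw [h7]
  have h8 : (6 * X + Y) ≤ 2 * (X + Y) * Real.pi := by nlinarith
  calc (6 * X + Y) * (r - r') ≤ (2 * (X + Y) * Real.pi) * (r - r') :=
        mul_le_mul_of_nonneg_right h8 hrr0.le
    _ = 2 * (X + Y) * (Real.pi * (r - r')) := by ring

/-- [THMA-L2], sharp form (no loss in `e`) -/
theorem L2_sharp {f : ℂ → ℂ → ℂ} {r e r' M μ : ℝ} {K : ℕ} (hr : 0 < r) (hrr : r' < r) (he : 0 < e)
    (her : e ≤ r) (hM : 0 ≤ M) (hμ : 0 ≤ μ) (hf : JD f (WW (1 / 2) r e))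
    (hp : Per f (WW (1 / 2) r e)) (h0 : ∀ x : ℝ, f x 0 = 0)
    (hb : Bd (fun x ε => f x ε - mn f ε) M (WW (1 / 2) r e)) (hres : Res f r e K μ) :
    ∃ S : ℂ → ℂ → ℂ, JD S {p | ‖p.2‖ < e} ∧ (∀ x ε, S (x + 1) ε = S x ε) ∧
      (∀ ε, mn S ε = 0) ∧
      Bd (fun x ε => f x ε - mn f ε - Dl S x ε)
        (2 / (r - r') * (K * e * μ + M * Real.exp (-(2 * Real.pi * K * (r - r')))))
        (WW (1 / 2) r' e) ∧
      ((∀ x ε : ℂ, (x, ε) ∈ WW (1 / 2) r e → f x (-ε) = -f x ε) → ∀ x ε, S x (-ε) = S x ε) ∧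
      ((∀ x ε : ℂ, (x, ε) ∈ WW (1 / 2) r e → f (conj x) (conj ε) = conj (f x ε)) →
        ∀ x ε, S (conj x) (conj ε) = conj (S x ε)) := by
  have hsmall : ∀ z : ℂ, ‖z‖ < e → 1 / 2 * |z.im| < r := by
    intro z hz
    have h1 : |z.im| ≤ ‖z‖ := Complex.abs_im_le_norm z
    have h2 := abs_nonneg z.im
    linarith
  refine ⟨SS f e K, SS_diff hsmall hf h0 K, ?_, ?_, SS_err hr hrr he her hM hμ hf hp h0 hb hres,
    ?_, ?_⟩
  · intro x ε
    simp only [SS, exp_per']
  · intro ε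
    simp only [mn, SS]
    by_cases hε : ‖ε‖ < e
    · simp only [if_pos hε]
      rw [intervalIntegral.integral_finset_sum]
      · refine Finset.sum_eq_zero fun k hk => ?_
        have hk0 : -k ≠ 0 := neg_ne_zero.2 (mem_DD.1 hk).1
        have h1 := fc_exp_zero hk0
        rw [intervalIntegral.integral_const_mul]
        have h2 : (fun x : ℝ => Complex.exp (2 * Real.pi * Complex.I * k * x)) =
            fun x : ℝ => Complex.exp (-(2 * Real.pi * Complex.I * ((-k : ℤ) : ℂ) * x)) := by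
          funext x; congr 1; push_cast; ring
        rw [h2, h1, mul_zero]
      · intro k _
        exact Continuous.intervalIntegrable (by fun_prop) _ _
    · simp only [if_neg hε]
      simp
  · intro hodd x ε
    simp only [SS, norm_neg]
    by_cases hε : ‖ε‖ < e
    · simp only [if_pos hε]
      refine Finset.sum_congr rfl fun k hk => ?_
      rw [Sk_even hsmall hodd (mem_DD.1 hk).1 hε]
    · simp only [if_neg hε]
  · intro hreal x ε
    simp only [SS, Complex.norm_conj]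
    by_cases hε : ‖ε‖ < e
    · simp only [if_pos hε]
      rw [map_sum]
      refine Finset.sum_nbij' (fun k => -k) (fun k => -k) ?_ ?_ ?_ ?_ ?_
      · intro k hk
        rw [mem_DD] at *
        exact ⟨neg_ne_zero.2 hk.1, by rw [Int.natAbs_neg]; exact hk.2⟩
      · intro k hk
        rw [mem_DD] at *
        exact ⟨neg_ne_zero.2 hk.1, by rw [Int.natAbs_neg]; exact hk.2⟩
      · intro k _; simp
      · intro k _; simp
      · intro k hk
        rw [Sk_real hsmall hreal (mem_DD.1 hk).1 hε, map_mul, ← Complex.exp_conj]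
        congr 2
        simp only [map_mul, Complex.conj_ofReal, Complex.conj_I, map_intCast, map_ofNat]
        push_cast
        ring
    · simp only [if_neg hε, map_zero]

/-- [THMA-L2] -/
theorem l2 : L2 := by
  refine ⟨1, 2, by norm_num, ?_⟩
  intro r e r' e' M μ K f hK hr' hrr hr he' hee her hM hμ hf hp h0 hb hres
  have he : 0 < e := he'.trans hee
  obtain ⟨S, h1, h2, h3, h4, h5, h6⟩ := L2_sharp (by linarith : 0 < r) hrr he (by linarith) hM hμ
    hf hp (fun x => h0 x (by simpa using (by linarith : 0 < r))) hb hres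
  refine ⟨S, h1.mono ?_, h2, fun ε _ => h3 ε, ?_, h5, h6⟩
  · intro p hp
    exact lt_trans (show ‖p.2‖ < e' from hp) hee
  · intro x ε hx
    have hx' : (x, ε) ∈ WW (1 / 2) r' e := ⟨lt_trans hx.1 hee, hx.2⟩
    refine (h4 x ε hx').trans ?_
    rw [pow_one, pow_one]
    have hrr0 : 0 < r - r' := by linarith
    have hee0 : 0 < e - e' := by linarith
    have hee1 : e - e' ≤ 1 := by linarith
    have h7 : 2 / (r - r') ≤ 2 / ((r - r') * (e - e')) :=
      div_le_div_of_nonneg_left (by norm_num) (by positivity) (by nlinarith)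
    have h8 : K * e * μ ≤ K * μ := by
      have : (K : ℝ) * e ≤ K := by
        have : (0:ℝ) ≤ K := Nat.cast_nonneg K
        nlinarith
      exact mul_le_mul_of_nonneg_right this hμ
    refine mul_le_mul h7 (by linarith) ?_ ?_
    · positivity
    · positivity

end Vale.Agent.P097.TA.H900
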