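import Vale.Agent.P097.H490.Quot
import Vale.Agent.P097.H900.Defs

/-! # P097 / Theorem A: Fourier tools on the domains `WW` (helper900) -/

set_option linter.all false

open Complex Set Filter Topology MeasureTheory
open Vale.Agent.P097.H490
open scoped ComplexConjugate

namespace Vale.Agent.P097.TA.H900

/-- Fourier expansion on a strip, bounded version -/
theorem hasSum_fourier_bdd {f : ℂ → ℂ} {a b M : ℝ} (ha : a < 0) (hb : 0 < b)
    (hf : DifferentiableOn ℂ f (Str a b)) (hper : ∀ t ∈ Str a b, f (t + 1) = f t)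
    (hM : ∀ t ∈ Str a b, ‖f t‖ ≤ M) {t : ℂ} (ht : t ∈ Str a b) :
    HasSum (fun N : ℤ => fc f N * Complex.exp (2 * Real.pi * Complex.I * N * t)) (f t) := by
  haveI : Fact (0 < (1:ℝ)) := ⟨one_pos⟩
  set y : ℝ := t.im with hy
  have hline : ∀ x : ℝ, (x + y * I : ℂ) ∈ Str a b := by
    intro x
    have h1 : (x + y * I : ℂ).im = y := by simp
    exact ⟨by rw [h1]; exact ht.1, by rw [h1]; exact ht.2⟩
  have hcont : Continuous (fun x : ℝ => f (x + y * I)) :=
    hf.continuousOn.comp_continuous (by fun_prop) hline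
  have hperR : Function.Periodic (fun x : ℝ => f (x + y * I)) 1 := by
    intro x
    simp only
    rw [← hper _ (hline x)]
    congr 1
    push_cast
    ring
  set F : C(AddCircle (1:ℝ), ℂ) := ⟨hperR.lift, continuous_coinduced_dom.mpr hcont⟩ with hF
  have hFx : ∀ x : ℝ, F (x : AddCircle (1:ℝ)) = f (x + y * I) := fun x => rfl
  have hcoef : ∀ N : ℤ, fourierCoeff F N =
      fc f N * Complex.exp (2 * Real.pi * Complex.I * N * (y * I)) := by
    intro N
    rw [fourierCoeff_eq_intervalIntegral _ N 0, ← fc_shift ha hb hf hper N ht.1 ht.2,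
      ← intervalIntegral.integral_mul_const]
    simp only [zero_add, ne_eq, one_ne_zero, not_false_eq_true, div_self, one_smul]
    refine intervalIntegral.integral_congr fun x _ => ?_
    show _ = _
    rw [hFx, fourier_coe_apply, smul_eq_mul, mul_comm]
    rw [mul_assoc (f _), ← Complex.exp_add]
    congr 2
    push_cast
    ring
  set T : ℤ → ℂ := fun N => fc f N * Complex.exp (2 * Real.pi * Complex.I * N * t) with hT
  have hTterm : ∀ N : ℤ, fourierCoeff F N • fourier N ((t.re : ℝ) : AddCircle (1:ℝ)) = T N := by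
    intro N
    rw [hcoef, fourier_coe_apply, smul_eq_mul, mul_assoc, ← Complex.exp_add]
    simp only [hT]
    congr 2
    conv_rhs => rw [← Complex.re_add_im t]
    push_cast
    ring
  have hpos : Summable (fun n : ℕ => T (n : ℤ)) := by
    refine Summable.of_norm_bounded (summable_geo (M := M) (y := t.im - a) (by linarith [ht.1]))
      fun n => ?_
    have := term_pos ha hb hf hper hM n t
    simpa [hT] using this
  have hneg : Summable (fun n : ℕ => T (-((n : ℤ) + 1))) := by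
    have h1 : Summable (fun n : ℕ => M * Real.exp (-(2 * Real.pi * (b - t.im))) ^ (n + 1)) :=
      (summable_nat_add_iff 1).2 (summable_geo (M := M) (y := b - t.im) (by linarith [ht.2]))
    refine Summable.of_norm_bounded h1 fun n => ?_
    have := term_neg ha hb hf hper hM (n + 1) t
    have e1 : T (-((n : ℤ) + 1)) = fc f (-((n + 1 : ℕ) : ℤ)) *
        Complex.exp (-(2 * Real.pi * Complex.I * ((n + 1 : ℕ) : ℂ) * t)) := by
      simp only [hT]
      congr 2
      push_cast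
      ring
    rw [e1]
    exact this
  have hsT : Summable T := Summable.of_nat_of_neg_add_one hpos hneg
  have hsF : Summable (fourierCoeff F) := by
    rw [← summable_norm_iff]
    have h1 : Summable (fun N => ‖T N‖) := hsT.norm
    refine h1.congr fun N => ?_
    rw [← hTterm, norm_smul]
    have : ‖fourier N ((t.re : ℝ) : AddCircle (1:ℝ))‖ = 1 := by
      rw [fourier_coe_apply, Complex.norm_exp]
      simp
    rw [this, mul_one]
  have h1 := has_pointwise_sum_fourier_series_of_summable hsF ((t.re : ℝ) : AddCircle (1:ℝ))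
  rw [hFx] at h1
  have h2 : ((t.re : ℝ) : ℂ) + y * I = t := Complex.re_add_im t
  rw [h2] at h1
  have e2 : (fun N => fourierCoeff F N • fourier N ((t.re : ℝ) : AddCircle (1:ℝ))) = T :=
    funext hTterm
  rw [e2] at h1
  exact h1

/-- a periodic function continuous on the open strip is bounded on smaller strips -/
theorem bdd_smaller {f : ℂ → ℂ} {ρ ρ' : ℝ} (h0 : 0 ≤ ρ') (h : ρ' < ρ)
    (hf : ContinuousOn f (Str (-ρ) ρ)) (hper : ∀ t ∈ Str (-ρ) ρ, f (t + 1) = f t) :
    ∃ M, ∀ t : ℂ, |t.im| ≤ ρ' → ‖f t‖ ≤ M := by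
  have hK : IsCompact (Icc (0:ℝ) 1 ×ℂ Icc (-ρ') ρ') := isCompact_Icc.reProdIm isCompact_Icc
  have hsub : (Icc (0:ℝ) 1 ×ℂ Icc (-ρ') ρ') ⊆ Str (-ρ) ρ := by
    intro t ht
    rw [Complex.mem_reProdIm] at ht
    exact ⟨by linarith [ht.2.1], by linarith [ht.2.2]⟩
  obtain ⟨M, hM⟩ := hK.exists_bound_of_continuousOn (hf.mono hsub)
  refine ⟨M, fun t ht => ?_⟩
  have hstr : ∀ s : ℂ, s.im = t.im → s ∈ Str (-ρ) ρ := by
    intro s hs
    rw [abs_le] at ht
    exact ⟨by rw [hs]; linarith [ht.1], by rw [hs]; linarith [ht.2]⟩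
  have key : ∀ (n : ℕ) (s : ℂ), s.im = t.im → f (s + n) = f s := by
    intro n
    induction n with
    | zero => intro s _; simp
    | succ n ih =>
      intro s hs
      have h1 : (s + ((n + 1 : ℕ) : ℂ)) = (s + n) + 1 := by push_cast; ring
      rw [h1, hper _ (hstr _ (by simpa using hs)), ih s hs]
  have key2 : ∀ (n : ℤ), f (t + n) = f t := by
    intro n
    obtain ⟨m, rfl | rfl⟩ := n.eq_nat_or_neg
    · have := key m t rfl
      simpa using this
    · have := key m (t + ((-(m:ℤ) : ℤ) : ℂ)) (by simp)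
      rw [← this]
      congr 1
      push_cast
      ring
  rw [← key2 (-⌊t.re⌋)]
  refine hM _ ?_
  rw [Complex.mem_reProdIm]
  have h1 : (t + ((-⌊t.re⌋ : ℤ) : ℂ)).re = Int.fract t.re := by
    simp [Int.fract, sub_eq_add_neg]
  have h2 : (t + ((-⌊t.re⌋ : ℤ) : ℂ)).im = t.im := by simp
  rw [h1, h2]
  exact ⟨⟨Int.fract_nonneg _, (Int.fract_lt_one _).le⟩, abs_le.1 ht⟩

theorem hasSum_fourier {f : ℂ → ℂ} {ρ : ℝ} 
    (hf : DifferentiableOn ℂ f (Str (-ρ) ρ)) (hper : ∀ t ∈ Str (-ρ) ρ, f (t + 1) = f t) {t : ℂ}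
    (ht : |t.im| < ρ) :
    HasSum (fun N : ℤ => fc f N * Complex.exp (2 * Real.pi * Complex.I * N * t)) (f t) := by
  obtain ⟨ρ', h1, h2⟩ := exists_between ht
  have h0 : 0 < ρ' := lt_of_le_of_lt (abs_nonneg _) h1
  obtain ⟨M, hM⟩ := bdd_smaller h0.le h2 hf.continuousOn hper
  have hsub : Str (-ρ') ρ' ⊆ Str (-ρ) ρ := fun s hs => ⟨by linarith [hs.1], by linarith [hs.2]⟩
  exact hasSum_fourier_bdd (by linarith) h0 (hf.mono hsub) (fun s hs => hper s (hsub hs))
    (M := M) (fun s hs => hM s (abs_le.2 ⟨hs.1.le, hs.2.le⟩)) ⟨(abs_lt.1 h1).1, (abs_lt.1 h1).2⟩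

/-- decay of the Fourier coefficients, symmetric form -/
theorem fc_le {f : ℂ → ℂ} {ρ M : ℝ} (hρ : 0 < ρ)
    (hf : DifferentiableOn ℂ f (Str (-ρ) ρ)) (hper : ∀ t ∈ Str (-ρ) ρ, f (t + 1) = f t)
    (hM : ∀ t ∈ Str (-ρ) ρ, ‖f t‖ ≤ M) (N : ℤ) :
    ‖fc f N‖ ≤ M * Real.exp (-(2 * Real.pi * ρ * |(N : ℝ)|)) := by
  rcases le_total 0 N with h | h
  · have h1 := fc_bound_a (by linarith) hρ hf hper hM N
    have h2 : |(N : ℝ)| = N := abs_of_nonneg (by exact_mod_cast h)
    rw [h2]
    convert h1 using 3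
    ring
  · have h1 := fc_bound_b (by linarith) hρ hf hper hM N
    have h2 : |(N : ℝ)| = -N := abs_of_nonpos (by exact_mod_cast h)
    rw [h2]
    convert h1 using 3
    ring

/-- geometric majorant on `ℤ` -/
theorem norm_le_of_hasSum_geo {T : ℤ → ℂ} {A : ℂ} {c s : ℝ} (hs : 0 < s) (hc : 0 ≤ c)
    (h0 : T 0 = 0)
    (hT : ∀ N : ℤ, N ≠ 0 → ‖T N‖ ≤ c * Real.exp (-(2 * Real.pi * s * |(N : ℝ)|)))
    (ha : HasSum T A) : ‖A‖ ≤ c / (Real.pi * s) := by
  have hpi := Real.pi_pos
  set q : ℝ := Real.exp (-(2 * Real.pi * s)) with hq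
  have hq0 : 0 < q := Real.exp_pos _
  have hq1 : q < 1 := exp_lt_one' hs
  have hqn : ∀ n : ℕ, Real.exp (-(2 * Real.pi * s * (n : ℝ))) = q ^ n := by
    intro n
    rw [hq, ← Real.exp_nat_mul]
    congr 1
    ring
  set B : ℤ → ℝ := fun N => if N = 0 then 0 else c * Real.exp (-(2 * Real.pi * s * |(N : ℝ)|)) with hB
  have hsum1 : HasSum (fun n : ℕ => c * q ^ (n + 1)) (c * (q / (1 - q))) := by
    have h1 := (hasSum_geometric_of_lt_one hq0.le hq1).mul_left (c * q)
    have h2 : (fun n : ℕ => c * q * q ^ n) = fun n => c * q ^ (n + 1) := by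
      funext n; ring
    rw [h2] at h1
    have h3 : c * q * (1 - q)⁻¹ = c * (q / (1 - q)) := by rw [div_eq_mul_inv]; ring
    rw [h3] at h1
    exact h1
  have hBp : HasSum (fun n : ℕ => B (n : ℤ)) (c * (q / (1 - q))) := by
    rw [← hasSum_nat_add_iff' (f := fun n : ℕ => B (n : ℤ)) 1]
    have h3 : ∑ i ∈ Finset.range 1, B (i : ℤ) = 0 := by simp [hB]
    rw [h3, sub_zero]
    have h5 : (fun n : ℕ => B ((n + 1 : ℕ) : ℤ)) = fun n : ℕ => c * q ^ (n + 1) := by
      funext n
      simp only [hB]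
      rw [if_neg (by omega)]
      have h4 : |(((n + 1 : ℕ) : ℤ) : ℝ)| = ((n + 1 : ℕ) : ℝ) := by
        rw [Int.cast_natCast]; exact abs_of_nonneg (Nat.cast_nonneg _)
      rw [h4, hqn]
    rw [h5]
    exact hsum1
  have hBn : HasSum (fun n : ℕ => B (-((n : ℤ) + 1))) (c * (q / (1 - q))) := by
    have h5 : (fun n : ℕ => B (-((n : ℤ) + 1))) = fun n : ℕ => c * q ^ (n + 1) := by
      funext n
      simp only [hB]
      rw [if_neg (by omega)]
      have h4 : |((-((n : ℤ) + 1) : ℤ) : ℝ)| = ((n + 1 : ℕ) : ℝ) := by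
        push_cast
        rw [abs_neg]
        exact abs_of_nonneg (by positivity)
      rw [h4, hqn]
    rw [h5]
    exact hsum1
  have hBt := HasSum.of_nat_of_neg_add_one hBp hBn
  have h5 : ‖A‖ ≤ c * (q / (1 - q)) + c * (q / (1 - q)) := by
    refine ha.norm_le_of_bounded hBt fun N => ?_
    by_cases hN : N = 0
    · simp [hB, hN, h0]
    · simp only [hB, if_neg hN]
      exact hT N hN
  refine h5.trans ?_
  have h6 : q / (1 - q) ≤ 1 / (2 * Real.pi * s) := by
    rw [div_le_div_iff₀ (by linarith) (by positivity)]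
    -- q * 2πs ≤ 1 - q  since 1 + 2πs ≤ 1/q
    have h7 : 1 + 2 * Real.pi * s ≤ q⁻¹ := by
      rw [hq, Real.exp_neg, inv_inv]
      have := Real.add_one_le_exp (2 * Real.pi * s)
      linarith
    have h8 : q * (1 + 2 * Real.pi * s) ≤ 1 := by
      calc q * (1 + 2 * Real.pi * s) ≤ q * q⁻¹ := mul_le_mul_of_nonneg_left h7 hq0.le
        _ = 1 := mul_inv_cancel₀ hq0.ne'
    linarith
  calc c * (q / (1 - q)) + c * (q / (1 - q)) = 2 * c * (q / (1 - q)) := by ring
    _ ≤ 2 * c * (1 / (2 * Real.pi * s)) := mul_le_mul_of_nonneg_left h6 (by positivity)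
    _ = c / (Real.pi * s) := by field_simp

/-- shift of the integration line by a complex number -/
theorem fc_shift' {f : ℂ → ℂ} {ρ : ℝ} 
    (hf : DifferentiableOn ℂ f (Str (-ρ) ρ)) (hper : ∀ t ∈ Str (-ρ) ρ, f (t + 1) = f t) (N : ℤ)
    {w : ℂ} (hw : |w.im| < ρ) :
    ∫ x in (0:ℝ)..1, f (x + w) * Complex.exp (-(2 * Real.pi * Complex.I * N * (x + w))) =
      fc f N := by
  have hρ : 0 < ρ := lt_of_le_of_lt (abs_nonneg _) hw
  have h1 := fc_shift (by linarith) hρ hf hper N (abs_lt.1 hw).1 (abs_lt.1 hw).2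
  rw [← h1]
  set ψ : ℝ → ℂ := fun x => f (x + w.im * I) *
    Complex.exp (-(2 * Real.pi * Complex.I * N * (x + w.im * I))) with hψ
  have hψper : Function.Periodic ψ 1 := by
    intro x
    simp only [hψ]
    have e1 : (((x + 1 : ℝ) : ℂ) + w.im * I) = (x + w.im * I) + 1 := by push_cast; ring
    have hm : (x + w.im * I : ℂ) ∈ Str (-ρ) ρ := by
      have h2 : (x + w.im * I : ℂ).im = w.im := by simp
      exact ⟨by rw [h2]; exact (abs_lt.1 hw).1, by rw [h2]; exact (abs_lt.1 hw).2⟩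
    rw [e1, hper _ hm, exp_per]
  have h2 : ∀ x : ℝ, f (x + w) * Complex.exp (-(2 * Real.pi * Complex.I * N * (x + w))) =
      ψ (x + w.re) := by
    intro x
    simp only [hψ]
    have e1 : (x + w : ℂ) = ((x + w.re : ℝ) : ℂ) + w.im * I := by
      conv_lhs => rw [← Complex.re_add_im w]
      push_cast; ring
    rw [e1]
  simp only [h2]
  rw [intervalIntegral.integral_comp_add_right (fun x => ψ x) w.re]
  have h3 := hψper.intervalIntegral_add_eq (0 + w.re) 0
  rw [zero_add] at h3 ⊢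
  rw [add_comm 1 w.re, h3, zero_add]

end Vale.Agent.P097.TA.H900
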