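import Vale.Agent.P097.H900.L2
import Vale.Agent.P097.H707.OneStep

/-! # P097 / Theorem A / THMA-L2, version without the factor `K` (helper900), in the shape `L2P` -/

set_option linter.all false

open Complex Set Filter Topology MeasureTheory
open Vale.Agent.P097.H490
open scoped ComplexConjugate

namespace Vale.Agent.P097.TA.H900

/-- error of the division, no factor `K` -/
theorem SS_err2 {f : ℂ → ℂ → ℂ} {r e r' M μ : ℝ} {K : ℕ} (hr : 0 < r) (hrr : r' < r)
    (hrr1 : r - r' ≤ 1) (he : 0 < e)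
    (her : e ≤ r) (hM : 0 ≤ M) (hμ : 0 ≤ μ) (hf : JD f (WW (1 / 2) r e))
    (hp : Per f (WW (1 / 2) r e)) (h0 : ∀ x : ℝ, f x 0 = 0)
    (hb : Bd (fun x ε => f x ε - mn f ε) M (WW (1 / 2) r e)) (hres : Res f r e K μ) :
    Bd (fun x ε => f x ε - mn f ε - Dl (SS f e K) x ε)
      (2 / (r - r') ^ 2 * (e * μ + M * Real.exp (-(2 * Real.pi * K * (r - r')))))
      (WW (1 / 2) r' e) := by
  intro x ε hx
  have hpi := Real.pi_pos
  have hpi3 := Real.pi_gt_three
  have hε : ‖ε‖ < e := hx.1
  have hxa : |x.im| + 1 / 2 * |ε.im| < r' := hx.2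
  have hrr0 : 0 < r - r' := by linarith
  have hsmall : 1 / 2 * |ε.im| < r := by
    have h1 : |ε.im| ≤ ‖ε‖ := Complex.abs_im_le_norm ε
    have h2 := abs_nonneg ε.im
    linarith
  have hsum := hasSum_fourier (slice_diff hf hε) (slice_per hp hε) (t := x) (by linarith)
  have hz : HasSum (fun N : ℤ => if N = 0 then mn f ε else 0) (mn f ε) :=
    hasSum_ite_eq (0 : ℤ) (mn f ε)
  set E : ℤ → ℂ := fun N => Complex.exp (2 * Real.pi * Complex.I * N * x) with hE
  have hfin : ∀ G : ℤ → ℂ, HasSum (fun N : ℤ => if N ∈ DD K then G N else 0)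
      (∑ N ∈ DD K, G N) := by
    intro G
    have h1 : HasSum (fun N : ℤ => if N ∈ DD K then G N else 0)
        (∑ b ∈ DD K, (if b ∈ DD K then G b else 0)) :=
      hasSum_sum_of_ne_finset_zero (fun b hb => if_neg hb)
    have h2 : ∑ b ∈ DD K, (if b ∈ DD K then G b else 0) = ∑ N ∈ DD K, G N :=
      Finset.sum_congr rfl fun b hb => if_pos hb
    rw [h2] at h1
    exact h1
  have hs1 := hfin (fun N => Ak f e N ε * E N)
  have hs2 := hfin (fun N => NN f e N ε * E N)
  set a1 : ℂ := ∑ N ∈ DD K, NN f e N ε * E N with ha1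
  have hD : Dl (SS f e K) x ε = ∑ N ∈ DD K, Ak f e N ε * E N := Dl_SS h0 K hε
  rw [← hD] at hs1
  have htot := ((hsum.sub hz).sub hs1).sub hs2
  have hexpN : ∀ N : ℤ, Real.exp (-(2 * Real.pi * |(N : ℝ)| * (r - 1 / 2 * |ε.im|))) *
      Real.exp (2 * Real.pi * |(N : ℝ)| * |x.im|) ≤
      Real.exp (-(2 * Real.pi * (r - r') * |(N : ℝ)|)) := by
    intro N
    rw [← Real.exp_add]
    refine Real.exp_le_exp.2 ?_
    have h6 : 0 ≤ 2 * Real.pi * |(N : ℝ)| := by positivity
    nlinarith
  -- nodes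
  have hb1 : ‖a1‖ ≤ (6 * e * μ / (Real.pi * (r - r'))) / (Real.pi * ((r - r') / 2)) := by
    refine norm_le_of_hasSum_geo (s := (r - r') / 2) (by linarith) (by positivity) ?_ ?_ hs2
    · simp [DD]
    · intro N hN
      by_cases hND : N ∈ DD K
      · rw [if_pos hND, norm_mul]
        have h1 := NN_bound hr he.le hμ hf hp hres hN (mem_DD.1 hND).2 ε
        -- |N| exp(- 2 π s |N|) ≤ exp(- π s |N|) / (π s)
        have h2 : |(N : ℝ)| * Real.exp (-(2 * Real.pi * (r - r') * |(N : ℝ)|)) ≤
            1 / (Real.pi * (r - r')) *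
              Real.exp (-(2 * Real.pi * ((r - r') / 2) * |(N : ℝ)|)) := by
          have h3 : Real.exp (-(2 * Real.pi * (r - r') * |(N : ℝ)|)) =
              Real.exp (-(Real.pi * (r - r') * |(N : ℝ)|)) *
                Real.exp (-(2 * Real.pi * ((r - r') / 2) * |(N : ℝ)|)) := by
            rw [← Real.exp_add]; congr 1; ring
          rw [h3, ← mul_assoc]
          refine mul_le_mul_of_nonneg_right ?_ (Real.exp_pos _).le
          rw [le_div_iff₀ (by positivity)]
          have h4 := Real.add_one_le_exp (Real.pi * (r - r') * |(N : ℝ)|)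
          have h5 : Real.exp (-(Real.pi * (r - r') * |(N : ℝ)|)) *
              Real.exp (Real.pi * (r - r') * |(N : ℝ)|) = 1 := by rw [← Real.exp_add]; simp
          have h6 : Real.exp (-(Real.pi * (r - r') * |(N : ℝ)|)) *
              (Real.pi * (r - r') * |(N : ℝ)|) ≤ 1 := by
            rw [← h5]
            exact mul_le_mul_of_nonneg_left (by linarith) (Real.exp_pos _).le
          linarith
        calc ‖NN f e N ε‖ * ‖E N‖
            ≤ (6 * (|(N : ℝ)| * e) * μ *
                Real.exp (-(2 * Real.pi * |(N : ℝ)| * (r - 1 / 2 * |ε.im|)))) *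
              Real.exp (2 * Real.pi * |(N : ℝ)| * |x.im|) :=
              mul_le_mul h1 (exp_norm_le N x) (norm_nonneg _) (by positivity)
          _ = 6 * (|(N : ℝ)| * e) * μ *
              (Real.exp (-(2 * Real.pi * |(N : ℝ)| * (r - 1 / 2 * |ε.im|))) *
              Real.exp (2 * Real.pi * |(N : ℝ)| * |x.im|)) := by ring
          _ ≤ 6 * (|(N : ℝ)| * e) * μ * Real.exp (-(2 * Real.pi * (r - r') * |(N : ℝ)|)) :=
              mul_le_mul_of_nonneg_left (hexpN N) (by positivity)
          _ = 6 * e * μ * (|(N : ℝ)| * Real.exp (-(2 * Real.pi * (r - r') * |(N : ℝ)|))) := by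
              ring
          _ ≤ 6 * e * μ * (1 / (Real.pi * (r - r')) *
              Real.exp (-(2 * Real.pi * ((r - r') / 2) * |(N : ℝ)|))) :=
              mul_le_mul_of_nonneg_left h2 (by positivity)
          _ = _ := by ring
      · rw [if_neg hND, norm_zero]; positivity
  -- tail
  have hb2 : ‖f x ε - mn f ε - Dl (SS f e K) x ε - a1‖ ≤
      M * Real.exp (-(2 * Real.pi * K * (r - r'))) / (Real.pi * (r - r')) := by
    refine norm_le_of_hasSum_geoK K hrr0 hM ?_ ?_ htot
    · intro N hN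
      by_cases hN0 : N = 0
      · subst hN0
        have h1 := cf_zero f ε
        simp only [cf] at h1
        simp [h1, DD]
      · have hND : N ∈ DD K := mem_DD.2 ⟨hN0, hN⟩
        simp only [if_neg hN0, if_pos hND, Ak, cf, hE]
        ring
    · intro N hN
      have hN0 : N ≠ 0 := by rintro rfl; simp at hN
      have hND : N ∉ DD K := fun h => by have := (mem_DD.1 h).2; omega
      simp only [if_neg hN0, if_neg hND, sub_zero]
      rw [norm_mul]
      have h1 := cf_le_osc hf hp hb hN0 hε hsmall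
      calc ‖fc (fun x => f x ε) N‖ * ‖Complex.exp (2 * Real.pi * Complex.I * N * x)‖
          ≤ (M * Real.exp (-(2 * Real.pi * (r - 1 / 2 * |ε.im|) * |(N : ℝ)|))) *
            Real.exp (2 * Real.pi * |(N : ℝ)| * |x.im|) :=
            mul_le_mul h1 (exp_norm_le N x) (norm_nonneg _) (by positivity)
        _ = M * (Real.exp (-(2 * Real.pi * |(N : ℝ)| * (r - 1 / 2 * |ε.im|))) *
            Real.exp (2 * Real.pi * |(N : ℝ)| * |x.im|)) := by
            rw [mul_assoc]; congr 3; ring
        _ ≤ M * Real.exp (-(2 * Real.pi * (r - r') * |(N : ℝ)|)) :=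
            mul_le_mul_of_nonneg_left (hexpN N) hM
  have h3 : ‖f x ε - mn f ε - Dl (SS f e K) x ε‖ ≤ ‖a1‖ +
      ‖f x ε - mn f ε - Dl (SS f e K) x ε - a1‖ := by
    calc ‖f x ε - mn f ε - Dl (SS f e K) x ε‖ =
        ‖a1 + (f x ε - mn f ε - Dl (SS f e K) x ε - a1)‖ := by congr 1; ring
      _ ≤ _ := norm_add_le _ _
  refine h3.trans ((add_le_add hb1 hb2).trans ?_)
  set X := e * μ with hX
  set Y := M * Real.exp (-(2 * Real.pi * K * (r - r'))) with hY
  have h4 : 0 ≤ X := by positivity
  have h5 : 0 ≤ Y := by positivity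
  have h6 : 6 * e * μ / (Real.pi * (r - r')) / (Real.pi * ((r - r') / 2)) ≤
      2 / (r - r') ^ 2 * X := by
    have h7 : 6 * e * μ / (Real.pi * (r - r')) / (Real.pi * ((r - r') / 2)) =
        12 / Real.pi ^ 2 * (1 / (r - r') ^ 2 * X) := by
      rw [hX]; field_simp; ring
    rw [h7]
    have h8 : 12 / Real.pi ^ 2 ≤ 2 := by
      rw [div_le_iff₀ (by positivity)]; nlinarith
    have h9 : 0 ≤ 1 / (r - r') ^ 2 * X := by positivity
    calc 12 / Real.pi ^ 2 * (1 / (r - r') ^ 2 * X) ≤ 2 * (1 / (r - r') ^ 2 * X) :=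
          mul_le_mul_of_nonneg_right h8 h9
      _ = _ := by ring
  have h10 : Y / (Real.pi * (r - r')) ≤ 2 / (r - r') ^ 2 * Y := by
    rw [div_mul_eq_mul_div, div_le_div_iff₀ (by positivity) (by positivity)]
    have h11 : (r - r') ^ 2 ≤ r - r' := by nlinarith
    have h12 : Y * (r - r') ^ 2 ≤ Y * (r - r') := mul_le_mul_of_nonneg_left h11 h5
    have h13 : 0 ≤ Y * (r - r') := by positivity
    nlinarith
  calc _ ≤ 2 / (r - r') ^ 2 * X + 2 / (r - r') ^ 2 * Y := add_le_add h6 h10
    _ = _ := by ring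

/-- the package L2 in the shape used by the iteration -/
theorem l2P : L2P 2 2 := by
  intro r e r' M μ K f hK hr' hrr hr he her hM hμ hf hp h0 hb hres
  have hr0 : 0 < r := hr'.trans hrr
  have hsmall : ∀ z : ℂ, ‖z‖ < e → 1 / 2 * |z.im| < r := by
    intro z hz
    have h1 : |z.im| ≤ ‖z‖ := Complex.abs_im_le_norm z
    have h2 := abs_nonneg z.im
    linarith
  have h0' : ∀ x : ℝ, f x 0 = 0 := fun x => h0 x (by simpa using hr0)
  refine ⟨SS f e K, SS_diff hsmall hf h0' K, ?_,
    SS_err2 hr0 hrr (by linarith) he (by linarith) hM hμ hf hp h0' hb hres, ?_, ?_⟩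
  · intro x ε
    simp only [SS, exp_per']
  · intro hodd x ε
    simp only [SS, norm_neg]
    by_cases hε : ‖ε‖ < e
    · simp only [if_pos hε]
      refine Finset.sum_congr rfl fun k hk => ?_
      rw [Sk_even hsmall hodd (mem_DD.1 hk).1 hε]
    · simp only [if_neg hε]
  · intro hreal x ε
    simp only [SS, Complex.norm_conj]
    by_cases hε : ‖ε‖ < e
    · simp only [if_pos hε]
      rw [map_sum]
      refine Finset.sum_nbij' (fun k => -k) (fun k => -k) ?_ ?_ ?_ ?_ ?_
      · intro k hk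
        rw [mem_DD] at *
        exact ⟨neg_ne_zero.2 hk.1, by rw [Int.natAbs_neg]; exact hk.2⟩
      · intro k hk
        rw [mem_DD] at *
        exact ⟨neg_ne_zero.2 hk.1, by rw [Int.natAbs_neg]; exact hk.2⟩
      · intro k _; simp
      · intro k _; simp
      · intro k hk
        rw [Sk_real hsmall hreal (mem_DD.1 hk).1 hε, map_mul, ← Complex.exp_conj]
        congr 2
        simp only [map_mul, Complex.conj_ofReal, Complex.conj_I, map_intCast, map_ofNat]
        push_cast
        ring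
    · simp only [if_neg hε, map_zero]

end Vale.Agent.P097.TA.H900
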