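import Vale.Agent.P097.H900.Slice

/-! # P097 / Theorem A / THMA-L2: interpolation at the resonances (helper900) -/

set_option linter.all false

open Complex Set Filter Topology MeasureTheory
open Vale.Agent.P097.H490
open scoped ComplexConjugate

namespace Vale.Agent.P097.TA.H900

/-! ## the cardinal sine -/

/-- cardinal sine -/
noncomputable def sc : ℂ → ℂ := dslope Complex.sin 0

theorem sc_diff : Differentiable ℂ sc := by
  have h : DifferentiableOn ℂ sc univ :=
    (Complex.differentiableOn_dslope (s := univ) (c := (0:ℂ)) Filter.univ_mem).2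
      Complex.differentiable_sin.differentiableOn
  exact differentiableOn_univ.1 h

theorem sc_mul (z : ℂ) : z * sc z = Complex.sin z := by
  have h := sub_smul_dslope Complex.sin 0 z
  simpa [sc] using h

theorem sc_zero : sc 0 = 1 := by
  simp [sc, dslope_same]

theorem sc_of_ne {z : ℂ} (hz : z ≠ 0) : sc z = Complex.sin z / z := by
  rw [← sc_mul z]; field_simp

theorem sc_neg (z : ℂ) : sc (-z) = sc z := by
  rcases eq_or_ne z 0 with rfl | hz
  · simp
  · rw [sc_of_ne hz, sc_of_ne (neg_ne_zero.2 hz), Complex.sin_neg, neg_div_neg_eq]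

theorem sc_conj (z : ℂ) : sc (conj z) = conj (sc z) := by
  rcases eq_or_ne z 0 with rfl | hz
  · simp [sc_zero]
  · have h : conj z ≠ 0 := by simpa using hz
    rw [sc_of_ne hz, sc_of_ne h, Complex.sin_conj, map_div₀]

theorem sc_int {j : ℤ} (hj : j ≠ 0) : sc (Real.pi * j) = 0 := by
  have h : (Real.pi * j : ℂ) ≠ 0 := by
    refine mul_ne_zero (by exact_mod_cast Real.pi_ne_zero) (by exact_mod_cast hj)
  rw [sc_of_ne h, mul_comm (Real.pi : ℂ), Complex.sin_int_mul_pi, zero_div]

theorem sin_bound (z : ℂ) : ‖Complex.sin z‖ ≤ Real.exp |z.im| := by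
  have hn := Complex.normSq_eq_norm_sq (Complex.sin z)
  rw [normSq_sin'] at hn
  have h1 : ‖Complex.sin z‖ ^ 2 ≤ Real.cosh |z.im| ^ 2 := by
    rw [← hn, Real.cosh_sq, ← Real.abs_sinh, sq_abs]
    nlinarith [Real.sin_sq_le_one z.re]
  have h2 : ‖Complex.sin z‖ ≤ Real.cosh |z.im| := le_of_sq_le_sq h1 (Real.cosh_pos _).le
  refine h2.trans ?_
  rw [Real.cosh_eq]
  have h3 : Real.exp (-|z.im|) ≤ Real.exp |z.im| :=
    Real.exp_le_exp.2 (by have := abs_nonneg z.im; linarith)
  linarith

theorem sc_bound (z : ℂ) : ‖sc z‖ ≤ 3 * Real.exp |z.im| := by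
  have hexp1 : 1 ≤ Real.exp |z.im| := Real.one_le_exp (abs_nonneg _)
  rcases le_or_gt 1 ‖z‖ with h | h
  · have hz : z ≠ 0 := by rintro rfl; simp at h; linarith
    rw [sc_of_ne hz, norm_div]
    have h1 := sin_bound z
    calc ‖Complex.sin z‖ / ‖z‖ ≤ ‖Complex.sin z‖ := div_le_self (norm_nonneg _) h
      _ ≤ Real.exp |z.im| := h1
      _ ≤ 3 * Real.exp |z.im| := by linarith
  · have hC : ∀ w ∈ frontier (Metric.ball (0:ℂ) 1), ‖sc w‖ ≤ 3 := by
      intro w hw
      rw [frontier_ball _ one_ne_zero, mem_sphere_zero_iff_norm] at hw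
      have hw0 : w ≠ 0 := by rintro rfl; simp at hw
      rw [sc_of_ne hw0, norm_div, hw, div_one]
      refine (sin_bound w).trans ?_
      have h1 : |w.im| ≤ 1 := by rw [← hw]; exact Complex.abs_im_le_norm w
      refine (Real.exp_le_exp.2 h1).trans ?_
      have := Real.exp_one_lt_d9
      linarith
    have := Complex.norm_le_of_forall_mem_frontier_norm_le (f := sc) (U := Metric.ball 0 1)
      Metric.isBounded_ball sc_diff.diffContOnCl hC (z := z) (subset_closure (by simpa using h))
    linarith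

/-! ## Fourier coefficients at the nodes -/

theorem fc_exp_zero {k : ℤ} (hk : k ≠ 0) :
    ∫ x in (0:ℝ)..1, Complex.exp (-(2 * Real.pi * Complex.I * k * x)) = 0 := by
  have hc : (-(2 * Real.pi * Complex.I * k) : ℂ) ≠ 0 := by
    refine neg_ne_zero.2 (mul_ne_zero (mul_ne_zero (mul_ne_zero two_ne_zero ?_) Complex.I_ne_zero) ?_)
    · exact_mod_cast Real.pi_ne_zero
    · exact_mod_cast hk
  have h1 : (fun x : ℝ => Complex.exp (-(2 * Real.pi * Complex.I * k * x))) =
      fun x : ℝ => Complex.exp ((-(2 * Real.pi * Complex.I * k)) * x) := by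
    funext x; congr 1; ring
  rw [h1, integral_exp_mul_complex hc]
  have h2 : Complex.exp (-(2 * Real.pi * Complex.I * k) * ((1:ℝ) : ℂ)) = 1 := by
    rw [Complex.exp_eq_one_iff]
    exact ⟨-k, by push_cast; ring⟩
  have h3 : Complex.exp (-(2 * Real.pi * Complex.I * k) * ((0:ℝ) : ℂ)) = 1 := by simp
  rw [h2, h3]; simp

theorem node_mem {r e : ℝ} (hr : 0 < r) {j k : ℤ} (hje : |(j : ℝ) / k| < e) :
    ‖((j : ℂ) / k)‖ < e ∧ ((j : ℂ) / k).im = 0 := by
  have h1 : ((j : ℂ) / k) = (((j : ℝ) / k : ℝ) : ℂ) := by push_cast; ring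
  rw [h1]
  exact ⟨by rw [Complex.norm_real, Real.norm_eq_abs]; exact hje, Complex.ofReal_im _⟩

/-- smallness of the resonant coefficients -/
theorem node_le {f : ℂ → ℂ → ℂ} {r e μ : ℝ} {K : ℕ} (hr : 0 < r) (hf : JD f (WW (1 / 2) r e))
    (hp : Per f (WW (1 / 2) r e)) (hres : Res f r e K μ) {k : ℤ} (hk : k ≠ 0)
    (hkK : k.natAbs ≤ K) {j : ℤ} (hj : j ≠ 0) (hje : |(j : ℝ) / k| < e) :
    ‖cf f k ((j : ℂ) / k)‖ ≤ μ * Real.exp (-(2 * Real.pi * r * |(k : ℝ)|)) := by
  set n : ℕ := k.natAbs with hn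
  set p : ℤ := j * k.sign with hpd
  have hn1 : 1 ≤ n := Int.natAbs_pos.2 hk
  have hnC : (n : ℂ) ≠ 0 := by exact_mod_cast (by omega : n ≠ 0)
  have hkC : (k : ℂ) ≠ 0 := by exact_mod_cast hk
  have hp0 : p ≠ 0 := mul_ne_zero hj (by simpa using hk)
  have hsn : k.sign * n = k := by rw [hn, Int.sign_mul_natAbs]
  have hss : k.sign * k.sign = 1 := by
    rcases lt_or_gt_of_ne hk with h | h
    · rw [Int.sign_eq_neg_one_of_neg h]; norm_num
    · rw [Int.sign_eq_one_of_pos h]; norm_num
  have hpn : (p : ℂ) / n = (j : ℂ) / k := by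
    rw [div_eq_div_iff hnC hkC]
    have h1 : p * k = j * n := by
      calc p * k = j * k.sign * (k.sign * n) := by rw [hsn]
        _ = j * (k.sign * k.sign) * n := by ring
        _ = j * n := by rw [hss, mul_one]
    have h2 := congrArg (fun z : ℤ => (z : ℂ)) h1
    push_cast at h2
    exact h2
  have hpnR : (p : ℝ) / n = (j : ℝ) / k := by
    have h2 : (((p : ℝ) / n : ℝ) : ℂ) = (((j : ℝ) / k : ℝ) : ℂ) := by push_cast; exact hpn
    exact_mod_cast h2
  set ε : ℂ := (j : ℂ) / k with hε
  obtain ⟨hεe, hε0⟩ := node_mem (e := e) hr hje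
  rw [← hε] at hεe hε0
  have hs := slice_diff hf hεe
  have hsp := slice_per hp hεe
  rw [hε0, abs_zero, mul_zero, sub_zero] at hs hsp
  set φ : ℂ → ℂ := fun x => f x ε with hφ
  set m : ℂ := mn f ε with hm
  have hshift : ∀ (i : ℕ), ∀ t ∈ Str (-r) r, t + i * ε ∈ Str (-r) r := by
    intro i t ht
    have h1 : (t + i * ε).im = t.im := by
      have : ((i : ℂ) * ε).im = 0 := by
        have : (i : ℂ) * ε = ((i : ℝ) : ℂ) * ε := by push_cast; ring
        rw [this, Complex.im_ofReal_mul, hε0, mul_zero]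
      rw [Complex.add_im, this, add_zero]
    exact ⟨by rw [h1]; exact ht.1, by rw [h1]; exact ht.2⟩
  set A : ℂ → ℂ := fun x => (∑ i ∈ Finset.range n, φ (x + i * ε)) / n - m with hA
  have hAd : DifferentiableOn ℂ A (Str (-r) r) := by
    refine DifferentiableOn.sub (DifferentiableOn.div_const (DifferentiableOn.fun_sum ?_) _)
      (differentiableOn_const _)
    intro i _
    exact hs.comp (f := fun x : ℂ => x + i * ε) (by fun_prop) (hshift i)
  have hAp : ∀ t ∈ Str (-r) r, A (t + 1) = A t := by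
    intro t ht
    simp only [hA]
    congr 2
    refine Finset.sum_congr rfl fun i _ => ?_
    have := hsp (t + i * ε) (hshift i t ht)
    rw [show t + 1 + i * ε = (t + i * ε) + 1 by ring]
    exact this
  have hAb : ∀ t ∈ Str (-r) r, ‖A t‖ ≤ μ := by
    intro t ht
    have h1 := hres n p hn1 hkK hp0 (by rw [hpnR]; exact hje) t (abs_lt.2 ⟨ht.1, ht.2⟩)
    rw [hpn] at h1
    exact h1
  have hmain := fc_le hr hAd hAp hAb k
  have hreal : ∀ x : ℝ, (x : ℂ) ∈ Str (-r) r := fun x => ⟨by simpa using hr, by simpa using hr⟩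
  have hcont : ∀ i : ℕ, Continuous (fun x : ℝ => φ (x + i * ε)) := by
    intro i
    rw [← continuousOn_univ]
    exact ContinuousOn.comp (g := φ) (f := fun x : ℝ => (x : ℂ) + i * ε) hs.continuousOn
      (Continuous.continuousOn (by fun_prop)) (fun x _ => hshift i _ (hreal x))
  have hterm : ∀ i : ℕ, ∫ x in (0:ℝ)..1, φ (x + i * ε) *
      Complex.exp (-(2 * Real.pi * Complex.I * k * x)) = fc φ k := by
    intro i
    have him : |((i : ℂ) * ε).im| < r := by
      have : (i : ℂ) * ε = ((i : ℝ) : ℂ) * ε := by push_cast; ring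
      rw [this, Complex.im_ofReal_mul, hε0, mul_zero, abs_zero]
      exact hr
    rw [← fc_shift' hs hsp k him]
    refine intervalIntegral.integral_congr fun x _ => ?_
    show φ (x + i * ε) * Complex.exp (-(2 * Real.pi * Complex.I * k * x)) =
      φ (x + i * ε) * Complex.exp (-(2 * Real.pi * Complex.I * k * (x + i * ε)))
    congr 1
    rw [Complex.exp_eq_exp_iff_exists_int]
    refine ⟨i * j, ?_⟩
    have h1 : (k : ℂ) * ε = j := by rw [hε]; field_simp
    push_cast
    linear_combination (2 * Real.pi * Complex.I * i : ℂ) * h1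
  have hval : fc A k = fc φ k := by
    have h1 : fc A k = ∫ x in (0:ℝ)..1, ((∑ i ∈ Finset.range n, φ (x + i * ε) *
        Complex.exp (-(2 * Real.pi * Complex.I * k * x))) * (n : ℂ)⁻¹ -
        m * Complex.exp (-(2 * Real.pi * Complex.I * k * x))) := by
      simp only [fc]
      refine intervalIntegral.integral_congr fun x _ => ?_
      simp only [hA]
      rw [← Finset.sum_mul]
      ring
    rw [h1, intervalIntegral.integral_sub, intervalIntegral.integral_mul_const,
      intervalIntegral.integral_const_mul, fc_exp_zero hk, mul_zero, sub_zero,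
      intervalIntegral.integral_finset_sum]
    · rw [Finset.sum_congr rfl (fun i _ => hterm i), Finset.sum_const, Finset.card_range,
        nsmul_eq_mul]
      field_simp
    · intro i _
      exact ((hcont i).mul (by fun_prop)).intervalIntegrable _ _
    · refine Continuous.intervalIntegrable (Continuous.mul (continuous_finsetSum _ fun i _ => ?_)
        continuous_const) _ _
      exact (hcont i).mul (by fun_prop)
    · exact Continuous.intervalIntegrable (by fun_prop) _ _
  rw [hval] at hmain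
  exact hmain

end Vale.Agent.P097.TA.H900
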