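import Vale.Agent.P097.H900.Four

/-! # P097 / Theorem A: slices `x ↦ g x ε` and their Fourier coefficients (helper900) -/

set_option linter.all false

open Complex Set Filter Topology MeasureTheory
open Vale.Agent.P097.H490
open scoped ComplexConjugate

namespace Vale.Agent.P097.TA.H900

theorem isOpen_WW (a r e : ℝ) : IsOpen (WW a r e) := by
  have h1 : Continuous (fun p : ℂ × ℂ => ‖p.2‖) := by fun_prop
  have h2 : Continuous (fun p : ℂ × ℂ => |p.1.im| + a * |p.2.im|) :=
    ((Complex.continuous_im.comp continuous_fst).abs).add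
      (continuous_const.mul (Complex.continuous_im.comp continuous_snd).abs)
  exact (isOpen_lt h1 continuous_const).inter (isOpen_lt h2 continuous_const)

/-- the `k`-th Fourier coefficient of the slice -/
noncomputable def cf (g : ℂ → ℂ → ℂ) (k : ℤ) (ε : ℂ) : ℂ := fc (fun x => g x ε) k

theorem slice_mem {a r e : ℝ} {ε : ℂ} (hε : ‖ε‖ < e) {t : ℂ}
    (ht : t ∈ Str (-(r - a * |ε.im|)) (r - a * |ε.im|)) : (t, ε) ∈ WW a r e := by
  refine ⟨hε, ?_⟩
  have : |t.im| < r - a * |ε.im| := abs_lt.2 ⟨ht.1, ht.2⟩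
  show |t.im| + a * |ε.im| < r
  linarith

theorem slice_diff {g : ℂ → ℂ → ℂ} {a r e : ℝ} (hg : JD g (WW a r e)) {ε : ℂ} (hε : ‖ε‖ < e) :
    DifferentiableOn ℂ (fun x => g x ε) (Str (-(r - a * |ε.im|)) (r - a * |ε.im|)) := by
  have h1 : DifferentiableOn ℂ (fun x : ℂ => ((x, ε) : ℂ × ℂ))
      (Str (-(r - a * |ε.im|)) (r - a * |ε.im|)) := by fun_prop
  exact hg.comp h1 (fun t ht => slice_mem hε ht)

theorem slice_per {g : ℂ → ℂ → ℂ} {a r e : ℝ} (hg : Per g (WW a r e)) {ε : ℂ} (hε : ‖ε‖ < e) :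
    ∀ t ∈ Str (-(r - a * |ε.im|)) (r - a * |ε.im|), (fun x => g x ε) (t + 1) = (fun x => g x ε) t :=
  fun t ht => hg t ε (slice_mem hε ht)

theorem cf_zero (g : ℂ → ℂ → ℂ) (ε : ℂ) : cf g 0 ε = mn g ε := by
  simp only [cf, fc, mn]
  refine intervalIntegral.integral_congr fun x _ => ?_
  simp

/-- the Fourier coefficients are holomorphic in `ε` -/
theorem cf_diff {g : ℂ → ℂ → ℂ} {a r e : ℝ} (hg : JD g (WW a r e))
    (hr : ∀ ε : ℂ, ‖ε‖ < e → a * |ε.im| < r) (k : ℤ) :
    DifferentiableOn ℂ (cf g k) (Metric.ball 0 e) := by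
  unfold cf fc
  refine diffOn_integral (Φ := fun ε x => g x ε * Complex.exp (-(2 * Real.pi * Complex.I * k * x)))
    Metric.isOpen_ball zero_le_one ?_ ?_
  · refine ContinuousOn.mul ?_ (Continuous.continuousOn (by fun_prop))
    have h1 : ContinuousOn (fun p : ℂ × ℝ => (((p.2 : ℂ), p.1) : ℂ × ℂ))
        (Metric.ball 0 e ×ˢ Icc (0:ℝ) 1) := Continuous.continuousOn (by fun_prop)
    refine ContinuousOn.comp (g := fun q : ℂ × ℂ => g q.1 q.2) hg.continuousOn h1 ?_
    rintro ⟨ε, x⟩ ⟨hε, _⟩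
    have hε' : ‖ε‖ < e := by simpa using hε
    refine ⟨hε', ?_⟩
    simpa using hr ε hε'
  · intro x _
    refine DifferentiableOn.mul ?_ (by fun_prop)
    have h1 : DifferentiableOn ℂ (fun z : ℂ => (((x : ℂ), z) : ℂ × ℂ)) (Metric.ball 0 e) := by
      fun_prop
    refine hg.comp h1 ?_
    intro ε hε
    have hε' : ‖ε‖ < e := by simpa using hε
    refine ⟨hε', ?_⟩
    simpa using hr ε hε'

/-- points of the slice, shifted by `± ε / 2` -/
theorem shift_mem {a r : ℝ} {ε t : ℂ} {s : ℝ} (hs : |s| ≤ 1 / 2)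
    (ht : t ∈ Str (-(r - (a + 1 / 2) * |ε.im|)) (r - (a + 1 / 2) * |ε.im|)) :
    t + s * ε ∈ Str (-(r - a * |ε.im|)) (r - a * |ε.im|) := by
  have h1 : |t.im| < r - (a + 1 / 2) * |ε.im| := abs_lt.2 ⟨ht.1, ht.2⟩
  have h2 : (t + s * ε).im = t.im + s * ε.im := by
    rw [Complex.add_im, Complex.im_ofReal_mul]
  have h3 : |(t + s * ε).im| < r - a * |ε.im| := by
    rw [h2]
    have h4 : |s * ε.im| ≤ 1 / 2 * |ε.im| := by
      rw [abs_mul]; exact mul_le_mul_of_nonneg_right hs (abs_nonneg _)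
    have h5 := abs_add_le t.im (s * ε.im)
    nlinarith
  exact ⟨(abs_lt.1 h3).1, (abs_lt.1 h3).2⟩

theorem Dl_diff {g : ℂ → ℂ → ℂ} {a r e : ℝ} (hg : JD g (WW a r e)) {ε : ℂ} (hε : ‖ε‖ < e) :
    DifferentiableOn ℂ (fun x => Dl g x ε)
      (Str (-(r - (a + 1 / 2) * |ε.im|)) (r - (a + 1 / 2) * |ε.im|)) := by
  have hs := slice_diff hg hε
  refine DifferentiableOn.sub ?_ ?_
  · refine hs.comp (f := fun x : ℂ => x + ε / 2) (by fun_prop) ?_
    intro t ht
    have := shift_mem (s := 1 / 2) (by norm_num) ht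
    convert this using 1
    push_cast; ring
  · refine hs.comp (f := fun x : ℂ => x - ε / 2) (by fun_prop) ?_
    intro t ht
    have := shift_mem (s := -(1 / 2)) (by norm_num) ht
    convert this using 1
    push_cast; ring

theorem Dl_per {g : ℂ → ℂ → ℂ} {a r e : ℝ} (hg : Per g (WW a r e)) {ε : ℂ} (hε : ‖ε‖ < e) :
    ∀ t ∈ Str (-(r - (a + 1 / 2) * |ε.im|)) (r - (a + 1 / 2) * |ε.im|),
      (fun x => Dl g x ε) (t + 1) = (fun x => Dl g x ε) t := by
  intro t ht
  have h1 := slice_per hg hε (t + ε / 2) (by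
    have := shift_mem (s := 1 / 2) (by norm_num) ht
    convert this using 1
    push_cast; ring)
  have h2 := slice_per hg hε (t - ε / 2) (by
    have := shift_mem (s := -(1 / 2)) (by norm_num) ht
    convert this using 1
    push_cast; ring)
  simp only at h1 h2
  simp only [Dl]
  rw [← h1, ← h2]
  congr 2 <;> ring

/-- multiplier of the centred difference -/
theorem cf_Dl {g : ℂ → ℂ → ℂ} {a r e : ℝ} (hg : JD g (WW a r e)) (hp : Per g (WW a r e))
    {ε : ℂ} (hε : ‖ε‖ < e) (hr : (a + 1 / 2) * |ε.im| < r) (k : ℤ) :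
    cf (Dl g) k ε = 2 * Complex.I * Complex.sin (Real.pi * (k * ε)) * cf g k ε := by
  have hs := slice_diff hg hε
  have hsp := slice_per hp hε
  have h0 : (0 : ℂ) ∈ Str (-(r - (a + 1 / 2) * |ε.im|)) (r - (a + 1 / 2) * |ε.im|) := by
    refine ⟨?_, ?_⟩ <;> simp <;> linarith
  have hreal : ∀ x : ℝ, (x : ℂ) ∈ Str (-(r - (a + 1 / 2) * |ε.im|)) (r - (a + 1 / 2) * |ε.im|) := by
    intro x
    refine ⟨?_, ?_⟩ <;> simp <;> linarith
  have hw1 : |(ε / 2).im| < r - a * |ε.im| := by
    have e1 : (ε / 2).im = ε.im / 2 := by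
      have : (ε / 2 : ℂ) = ((1 / 2 : ℝ) : ℂ) * ε := by push_cast; ring
      rw [this, Complex.im_ofReal_mul]; ring
    rw [e1, abs_div, abs_of_pos (by norm_num : (0:ℝ) < 2)]
    nlinarith
  have hw2 : |(-(ε / 2)).im| < r - a * |ε.im| := by
    rw [Complex.neg_im, abs_neg]; exact hw1
  have h1 := fc_shift' hs hsp k hw1
  have h2 := fc_shift' hs hsp k hw2
  have hc1 : ContinuousOn (fun x : ℝ => g (x + ε / 2) ε) univ := by
    refine ContinuousOn.comp (g := fun z : ℂ => g z ε) (f := fun x : ℝ => (x : ℂ) + ε / 2)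
      hs.continuousOn (Continuous.continuousOn (by fun_prop)) ?_
    intro x _
    have := shift_mem (s := 1 / 2) (by norm_num) (hreal x)
    convert this using 1
    push_cast; ring
  have hc2 : ContinuousOn (fun x : ℝ => g (x + -(ε / 2)) ε) univ := by
    refine ContinuousOn.comp (g := fun z : ℂ => g z ε) (f := fun x : ℝ => (x : ℂ) + -(ε / 2))
      hs.continuousOn (Continuous.continuousOn (by fun_prop)) ?_
    intro x _
    have := shift_mem (s := -(1 / 2)) (by norm_num) (hreal x)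
    convert this using 1
    push_cast; ring
  rw [continuousOn_univ] at hc1 hc2
  have key : ∀ x : ℝ, Dl g x ε * Complex.exp (-(2 * Real.pi * Complex.I * k * x)) =
      Complex.exp (Real.pi * (k * ε) * Complex.I) *
        (g (x + ε / 2) ε * Complex.exp (-(2 * Real.pi * Complex.I * k * (x + ε / 2)))) -
      Complex.exp (-(Real.pi * (k * ε)) * Complex.I) *
        (g (x + -(ε / 2)) ε * Complex.exp (-(2 * Real.pi * Complex.I * k * (x + -(ε / 2))))) := by
    intro x
    have e1 : Complex.exp (Real.pi * (k * ε) * Complex.I) *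
        Complex.exp (-(2 * Real.pi * Complex.I * k * (x + ε / 2))) =
        Complex.exp (-(2 * Real.pi * Complex.I * k * x)) := by
      rw [← Complex.exp_add]; congr 1; ring
    have e2 : Complex.exp (-(Real.pi * (k * ε)) * Complex.I) *
        Complex.exp (-(2 * Real.pi * Complex.I * k * (x + -(ε / 2)))) =
        Complex.exp (-(2 * Real.pi * Complex.I * k * x)) := by
      rw [← Complex.exp_add]; congr 1; ring
    simp only [Dl]
    rw [sub_mul, ← e1]
    rw [show (x : ℂ) - ε / 2 = x + -(ε / 2) by ring]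
    rw [← sub_eq_zero]
    linear_combination (-g (x + -(ε / 2)) ε) * e1 + (g (x + -(ε / 2)) ε) * e2
  simp only [cf, fc]
  simp only [cf, fc] at h1 h2
  simp only [key]
  rw [intervalIntegral.integral_sub, intervalIntegral.integral_const_mul,
    intervalIntegral.integral_const_mul, h1, h2, Complex.sin]
  · linear_combination (-(Complex.exp (-(Real.pi * (k * ε)) * Complex.I) -
      Complex.exp (Real.pi * (k * ε) * Complex.I)) *
      (∫ x in (0:ℝ)..1, g x ε * Complex.exp (-(2 * Real.pi * Complex.I * k * x)))) * Complex.I_sq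
  · exact (continuous_const.mul (hc1.mul (by fun_prop))).intervalIntegrable _ _
  · exact (continuous_const.mul (hc2.mul (by fun_prop))).intervalIntegrable _ _

/-- lower bound of the sine away from the integers -/
theorem sin_lower_tau {z : ℂ} {τ : ℝ} (h0 : 0 < τ) (h1 : τ ≤ 1 / 4)
    (hz : ∀ j : ℤ, τ ≤ ‖z - j‖) :
    τ / 2 * Real.exp (Real.pi * |z.im|) ≤ ‖Complex.sin (Real.pi * z)‖ := by
  have hpi := Real.pi_pos
  have hpi3 := Real.pi_gt_three
  have hpi4 := Real.pi_lt_d2
  have him : (Real.pi * z : ℂ).im = Real.pi * z.im := Complex.im_ofReal_mul _ _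
  have hre : (Real.pi * z : ℂ).re = Real.pi * z.re := Complex.re_ofReal_mul _ _
  rcases le_or_gt τ |z.im| with h | h
  · refine le_trans ?_ (sin_ge_sinh _)
    rw [him]
    set u : ℝ := Real.pi * |z.im| with hu
    have hu0 : 3 * τ ≤ u := by nlinarith
    have h2 : |Real.sinh (Real.pi * z.im)| = Real.sinh u := by
      rw [Real.abs_sinh, abs_mul, abs_of_pos hpi]
    rw [h2, Real.sinh_eq]
    -- exp(-u) ≤ (1 - τ) exp u
    have h3 : Real.exp (-u) * Real.exp u = 1 := by rw [← Real.exp_add]; simp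
    have h4 : 1 + 2 * u ≤ Real.exp u * Real.exp u := by
      rw [← Real.exp_add]
      have := Real.add_one_le_exp (u + u)
      linarith
    have h5 : Real.exp (-u) ≤ (1 - τ) * Real.exp u := by
      have h6 : 1 ≤ (1 - τ) * (Real.exp u * Real.exp u) := by
        have : 1 ≤ (1 - τ) * (1 + 2 * u) := by nlinarith
        nlinarith
      have h7 : Real.exp (-u) * Real.exp u ≤ ((1 - τ) * Real.exp u) * Real.exp u := by
        rw [h3]; linarith
      exact le_of_mul_le_mul_right h7 (Real.exp_pos _)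
    linarith
  · -- |z.im| < τ
    have hn := Complex.normSq_eq_norm_sq (Complex.sin (Real.pi * z))
    rw [normSq_sin', him, hre] at hn
    set j : ℤ := round z.re with hj
    have hd : |z.re - j| ≤ 1 / 2 := abs_sub_round z.re
    have hzj := hz j
    have hzj2 : τ ^ 2 ≤ (z.re - j) ^ 2 + z.im ^ 2 := by
      have : ‖z - j‖ ^ 2 = (z.re - j) ^ 2 + z.im ^ 2 := by
        rw [Complex.sq_norm, Complex.normSq_apply]; simp; ring
      rw [← this]
      exact pow_le_pow_left₀ h0.le hzj 2
    have hsin : (2 * (z.re - j)) ^ 2 ≤ Real.sin (Real.pi * z.re) ^ 2 := by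
      have e1 : Real.sin (Real.pi * z.re) ^ 2 = Real.sin (Real.pi * |z.re - j|) ^ 2 := by
        have e2 : Real.sin (Real.pi * z.re) = (-1) ^ j * Real.sin (Real.pi * (z.re - j)) := by
          rw [← Real.sin_add_int_mul_pi]
          congr 1
          ring
        have e3 : Real.sin (Real.pi * |z.re - j|) ^ 2 = Real.sin (Real.pi * (z.re - j)) ^ 2 := by
          rcases abs_choice (z.re - j) with h | h
          · rw [h]
          · rw [h, mul_neg, Real.sin_neg, neg_sq]
        rw [e3, e2, mul_pow, ← zpow_natCast, ← zpow_mul, mul_comm j, zpow_mul]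
        norm_num
      rw [e1, ← sq_abs (2 * (z.re - j)), abs_mul, abs_of_pos (by norm_num : (0:ℝ) < 2)]
      refine pow_le_pow_left₀ (by positivity) ?_ 2
      have h6 := Real.mul_le_sin (x := Real.pi * |z.re - j|) (by positivity) (by nlinarith)
      refine le_trans (le_of_eq ?_) h6
      field_simp
    have hsinh : (2 * z.im) ^ 2 ≤ Real.sinh (Real.pi * z.im) ^ 2 := by
      rw [← sq_abs (2 * z.im), ← sq_abs (Real.sinh _), Real.abs_sinh, abs_mul, abs_mul,
        abs_of_pos (by norm_num : (0:ℝ) < 2), abs_of_pos hpi]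
      refine pow_le_pow_left₀ (by positivity) ?_ 2
      have h6 : Real.pi * |z.im| ≤ Real.sinh (Real.pi * |z.im|) :=
        Real.self_le_sinh_iff.2 (by positivity)
      nlinarith [abs_nonneg z.im]
    have h7 : (2 * τ) ^ 2 ≤ ‖Complex.sin (Real.pi * z)‖ ^ 2 := by
      rw [← hn]; nlinarith
    have h8 : 2 * τ ≤ ‖Complex.sin (Real.pi * z)‖ :=
      le_of_sq_le_sq h7 (norm_nonneg _)
    have h9 : Real.exp (Real.pi * |z.im|) ≤ 2.7182818286 := by
      refine le_trans (Real.exp_le_exp.2 ?_) Real.exp_one_lt_d9.le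
      nlinarith
    nlinarith

end Vale.Agent.P097.TA.H900
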